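import Vale.Agent.P073.R2.H488.Step

/-!
# P073: maps whose weak derivative is block triangular with directionally monotone blocks
-/

namespace Vale.Agent.P073.R2.H488

open MeasureTheory Set Filter Topology Metric Vale.Agent.P073.St Vale.Agent.P073.AB
open Vale.Agent.P073.SQ (ev)
open Vale.Agent.P073.PK (cl_apply)
open Vale.Agent.P073.MM
open scoped ContDiff ENNReal

/-- the weak derivative is block lower triangular (the blocks are the level sets of `r`), and its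
diagonal blocks are directionally monotone: to each direction `h` in a block there is a direction
`n` in the same block, not orthogonal to `h`, in which the image advances -/
structure DFlag (U : Set V) (F : V → Mat) (r : Fin 3 → ℕ) (c : ℝ) : Prop where
  tri : ∀ᵐ x ∂(volume : Measure V), x ∈ U → ∀ i j, r i < r j → F x i j = 0
  dir : ∀ (b : ℕ) (h : V), (∀ i, r i ≠ b → h i = 0) → ∃ n : V, (∀ i, r i ≠ b → n i = 0) ∧
    ‖n‖ ≤ c * ‖h‖ ∧ ‖h‖ ^ 2 ≤ ∑ i, n i * h i ∧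
    ∀ᵐ x ∂(volume : Measure V), x ∈ U → 0 ≤ ∑ i, n i * ∑ j, F x i j * h j

/-- the bilinear functional -/
noncomputable def bf (n h : V) : (V →L[ℝ] V) →L[ℝ] ℝ :=
  ∑ i, n i • (ContinuousLinearMap.proj (R := ℝ) (φ := fun _ : Fin 3 => ℝ) i).comp
    (ContinuousLinearMap.apply ℝ V h)

theorem bf_apply (n h : V) (A : V →L[ℝ] V) : bf n h A = ∑ i, n i * A h i := by
  unfold bf
  rw [ContinuousLinearMap.sum_apply]
  rfl

theorem bf_norm (n h : V) : ‖bf n h‖ ≤ 3 * (‖n‖ * ‖h‖) := by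
  refine ContinuousLinearMap.opNorm_le_bound _ (by positivity) fun A => ?_
  rw [bf_apply, Real.norm_eq_abs]
  calc |∑ i, n i * A h i| ≤ ∑ i, |n i * A h i| := Finset.abs_sum_le_sum_abs _ _
    _ ≤ ∑ _i : Fin 3, ‖n‖ * (‖A‖ * ‖h‖) := by
        refine Finset.sum_le_sum fun i _ => ?_
        rw [abs_mul]
        have h1 : |n i| ≤ ‖n‖ := norm_le_pi_norm n i
        have h2 : |A h i| ≤ ‖A h‖ := norm_le_pi_norm (A h) i
        exact mul_le_mul h1 (h2.trans (A.le_opNorm h)) (abs_nonneg _) (norm_nonneg _)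
    _ = 3 * (‖n‖ * ‖h‖) * ‖A‖ := by simp; ring

variable {p : ℝ} {U W : Set V} {f : V → V} {F : V → Mat} {r : Fin 3 → ℕ} {c : ℝ}

/-- smoothing a map with flagged weak derivative -/
theorem smoothD {e : V → ℝ} {ε : ℝ}
    (hp : 1 ≤ p) (hU : IsOpen U) (hUb : Bornology.IsBounded U) (hf : ContinuousOn f U)
    (hF : St.IsSobolev p U f F) (hfl : DFlag U F r c)
    (he : ContinuousOn e U) (he0 : ∀ x ∈ U, 0 < e x) (hε : 0 < ε) :
    ∃ g : V → V, ContDiffOn ℝ ∞ g U ∧ (∀ x ∈ U, ‖g x - f x‖ ≤ e x) ∧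
      ∫⁻ x in U, ENNReal.ofReal (‖fderiv ℝ g x - cl (F x)‖ ^ p) ≤ ENNReal.ofReal ε ∧
      (∀ x ∈ U, ∀ i j, r i < r j → |fderiv ℝ g x (ev j) i| ≤ e x) ∧
      ∀ x ∈ U, ∀ (b : ℕ) (h : V), (∀ i, r i ≠ b → h i = 0) → ∃ n : V,
        (∀ i, r i ≠ b → n i = 0) ∧ ‖n‖ ≤ c * ‖h‖ ∧ ‖h‖ ^ 2 ≤ ∑ i, n i * h i ∧
        -(3 * c * e x * ‖h‖ ^ 2) ≤ ∑ i, n i * fderiv ℝ g x h i := by
  obtain ⟨g, g1, g2, g3, g4⟩ := smoothL hp hU hUb hf hF he he0 hε
  refine ⟨g, g1, g2, g3, fun x hx i j hij => ?_, fun x hx b h hb => ?_⟩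
  · have e1 : ∀ y, cl (F y) (ev j) i = F y i j := by
      intro y
      rw [cl_apply]
      simp [ev, Pi.single_apply]
    have hz : ∀ᵐ y ∂(volume : Measure V), y ∈ U → F y i j = 0 := by
      filter_upwards [hfl.tri] with y hy hyU using hy hyU i j hij
    have p1 : Pos U F (ent i j) := by
      filter_upwards [hz] with y hy hyU
      rw [ent_apply, e1, hy hyU]
    have p2 : Pos U F (-ent i j) := by
      filter_upwards [hz] with y hy hyU
      rw [ContinuousLinearMap.neg_apply, ent_apply, e1, hy hyU, neg_zero]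
    have q1 := g4 _ p1 x hx
    have q2 := g4 _ p2 x hx
    have hn : ‖-ent i j‖ ≤ 1 := by
      refine ContinuousLinearMap.opNorm_le_bound _ zero_le_one fun A => ?_
      rw [ContinuousLinearMap.neg_apply, norm_neg]
      exact (ent i j).le_of_opNorm_le (ent_norm i j) A
    rw [ContinuousLinearMap.neg_apply] at q2
    rw [ent_apply] at q1 q2
    have h3 := ent_norm i j
    have h5 : e x * ‖-ent i j‖ ≤ e x * 1 := mul_le_mul_of_nonneg_left hn (he0 x hx).le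
    have h4 : e x * ‖ent i j‖ ≤ e x * 1 := mul_le_mul_of_nonneg_left h3 (he0 x hx).le
    rw [abs_le]
    constructor <;> linarith
  · obtain ⟨n, n1, n2, n3, n4⟩ := hfl.dir b h hb
    refine ⟨n, n1, n2, n3, ?_⟩
    have p1 : Pos U F (bf n h) := by
      filter_upwards [n4] with y hy hyU
      rw [bf_apply]
      simpa only [cl_apply] using hy hyU
    have q1 := g4 _ p1 x hx
    rw [bf_apply] at q1
    have e0 := (he0 x hx).le
    have h4 : e x * ‖bf n h‖ ≤ e x * (3 * (c * ‖h‖ * ‖h‖)) :=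
      mul_le_mul_of_nonneg_left ((bf_norm n h).trans (by gcongr)) e0
    have h5 : e x * (3 * (c * ‖h‖ * ‖h‖)) = 3 * c * e x * ‖h‖ ^ 2 := by ring
    linarith

/-- the data of the steps -/
structure DCtx (p : ℝ) (U W : Set V) (f : V → V) (F : V → Mat) (r : Fin 3 → ℕ) (κ : V → ℝ)
    (R t c : ℝ) : Prop where
  hp : 1 ≤ p
  hU : IsOpen U
  hUb : Bornology.IsBounded U
  hfc : ContinuousOn f U
  hfW : ∀ x ∈ U, f x ∈ W
  hF : St.IsSobolev p U f F
  hfl : DFlag U F r c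
  hc : 1 ≤ c
  hR : 1 ≤ R
  hUR : ∀ x ∈ U, ‖x‖ ≤ R
  ht0 : 0 < t
  htc : t * c ≤ 1
  hκs : ContDiff ℝ ∞ κ
  hκ0 : ∀ y ∈ W, 0 < κ y
  hκt : ∀ y, κ y ≤ t
  hκd : ∀ y, ‖fderiv ℝ κ y‖ ≤ t / (24 * R)

theorem DCtx.lip {κ : V → ℝ} {R t : ℝ} (C : DCtx p U W f F r κ R t c) (x y : V) :
    |κ x - κ y| ≤ t / (24 * R) * ‖x - y‖ := by
  have h := Convex.norm_image_sub_le_of_norm_fderiv_le (𝕜 := ℝ) (f := κ) (s := univ)
    (fun z _ => (C.hκs.differentiable (by simp)) z) (fun z _ => C.hκd z) convex_univ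
    (mem_univ y) (mem_univ x)
  simpa using h

theorem DCtx.ht1 {κ : V → ℝ} {R t : ℝ} (C : DCtx p U W f F r κ R t c) : t ≤ 1 := by
  have h1 := C.htc
  have h2 := C.hc
  have h3 := C.ht0
  nlinarith

end Vale.Agent.P073.R2.H488
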