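import Vale.Agent.P073.R2.H488.Dir1

/-!
# P073: directionally monotone blocks: one step, the algebra
-/

namespace Vale.Agent.P073.R2.H488

open MeasureTheory Set Filter Topology Metric Vale.Agent.P073.St Vale.Agent.P073.AB
open Vale.Agent.P073.SQ (ev)
open Vale.Agent.P073.PK (cl_apply)
open Vale.Agent.P073.MM
open scoped ContDiff ENNReal

/-- the linear algebra of the step: `A` is the old derivative, `D` the derivative of the smoothing,
`E` the derivative of the mixed map, `q = Dκ E h` -/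
theorem algD {r : Fin 3 → ℕ} {b : ℕ} {A D : V →L[ℝ] V} {h x v n : V} {K R e m q c : ℝ}
    (hR : 1 ≤ R) (hc : 1 ≤ c)
    (hx : ‖x‖ ≤ R) (hK : 0 < K) (he : 0 < e) (hm : 0 ≤ m)
    (hAi : ∀ w, A w = 0 → w = 0) (hAm : ‖h‖ ≤ m * ‖A h‖)
    (hA0 : ∀ j, r j ≠ b → A h j = 0) (hAh : ∀ j, r j ≤ b → h j = A h j)
    (hv1 : ∀ j, r j ≤ b → v j = D h j) (hv2 : ∀ j, b < r j → v j = A h j)
    (hq : |q| ≤ ‖v‖ / (24 * R * c)) (heq : ∀ j, r j = b → D h j + (K * h j + q * x j) = 0)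
    (hD1 : ∀ i j, r i < r j → |D (ev j) i| ≤ e)
    (hn0 : ∀ i, r i ≠ b → n i = 0) (hnc : ‖n‖ ≤ c * ‖A h‖)
    (hnh : ‖A h‖ ^ 2 ≤ ∑ i, n i * A h i) (hD2 : -(3 * c * e * ‖A h‖ ^ 2) ≤ ∑ i, n i * D (A h) i)
    (heK : e * c * (1 + m) ≤ K / 900) : h = 0 := by
  set η : V := A h with hη
  have hη0 : 0 ≤ ‖η‖ := norm_nonneg _
  have hh0 : 0 ≤ ‖h‖ := norm_nonneg _
  have hc0 : 0 < c := by linarith
  have hec : 0 < e * c := mul_pos he hc0
  have hem : e * c * m ≤ K / 900 := by nlinarith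
  have he9 : e * c ≤ K / 900 := by nlinarith
  -- the size of `v`
  have hqR' : |q| * R ≤ ‖v‖ / (24 * c) := by
    calc |q| * R ≤ ‖v‖ / (24 * R * c) * R := mul_le_mul_of_nonneg_right hq (by linarith)
      _ = ‖v‖ / (24 * c) := by field_simp
  have hqR : |q| * R ≤ ‖v‖ / 24 := by
    refine hqR'.trans ?_
    apply div_le_div_of_nonneg_left (norm_nonneg v) (by norm_num)
    linarith
  have hxj : ∀ j, |x j| ≤ R := fun j => (norm_le_pi_norm x j).trans hx
  have hηj : ∀ j, |η j| ≤ ‖η‖ := fun j => norm_le_pi_norm η j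
  have hhj : ∀ j, |h j| ≤ ‖h‖ := fun j => norm_le_pi_norm h j
  have hqx : ∀ j, |q * x j| ≤ ‖v‖ / 24 := fun j => by
    rw [abs_mul]
    exact (mul_le_mul_of_nonneg_left (hxj j) (abs_nonneg q)).trans hqR
  have hqx' : ∀ j, |q * x j| ≤ ‖v‖ / (24 * c) := fun j => by
    rw [abs_mul]
    exact (mul_le_mul_of_nonneg_left (hxj j) (abs_nonneg q)).trans hqR'
  have hvj : ∀ j, |v j| ≤ K * ‖η‖ + ‖v‖ / 24 + 3 * e * ‖h‖ := by
    intro j
    have hv0 : 0 ≤ ‖v‖ := norm_nonneg _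
    have p1 : 0 ≤ K * ‖η‖ := by positivity
    have p2 : 0 ≤ 3 * e * ‖h‖ := by positivity
    rcases lt_trichotomy (r j) b with hj | hj | hj
    · rw [hv1 j hj.le, expand D h j]
      have h1 : |∑ i, h i * D (ev i) j| ≤ ∑ _i : Fin 3, e * ‖h‖ := by
        refine (Finset.abs_sum_le_sum_abs _ _).trans (Finset.sum_le_sum fun i _ => ?_)
        rw [abs_mul]
        rcases le_or_gt (r i) (r j) with hi | hi
        · have : h i = 0 := by
            rw [hAh i (hi.trans hj.le)]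
            exact hA0 i (ne_of_lt (lt_of_le_of_lt hi hj))
          rw [this, abs_zero, zero_mul]
          positivity
        · calc |h i| * |D (ev i) j| ≤ ‖h‖ * e :=
                mul_le_mul (hhj i) (hD1 j i hi) (abs_nonneg _) hh0
            _ = e * ‖h‖ := mul_comm _ _
      have h2 : ∑ _i : Fin 3, e * ‖h‖ = 3 * e * ‖h‖ := by simp; ring
      linarith
    · rw [hv1 j hj.le]
      have h1 : D h j = -(K * h j) - q * x j := by linarith [heq j hj]
      have h2 : |K * h j| ≤ K * ‖η‖ := by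
        rw [abs_mul, abs_of_pos hK, hAh j hj.le]
        exact mul_le_mul_of_nonneg_left (hηj j) hK.le
      have h3 := hqx j
      rw [h1, abs_le]
      rw [abs_le] at h2 h3
      constructor <;> linarith [h2.1, h2.2, h3.1, h3.2]
    · rw [hv2 j hj, hA0 j hj.ne', abs_zero]
      positivity
  have hv : ‖v‖ ≤ K * ‖η‖ + ‖v‖ / 24 + 3 * e * ‖h‖ :=
    (pi_norm_le_iff_of_nonneg (by positivity)).2 hvj
  have hmh' : e * c * ‖h‖ ≤ K / 900 * ‖η‖ := by
    calc e * c * ‖h‖ ≤ e * c * (m * ‖η‖) := mul_le_mul_of_nonneg_left hAm hec.le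
      _ = (e * c * m) * ‖η‖ := by ring
      _ ≤ K / 900 * ‖η‖ := mul_le_mul_of_nonneg_right hem hη0
  have hmh : e * ‖h‖ ≤ K / 900 * ‖η‖ := by
    have h1 : e * ‖h‖ * 1 ≤ e * ‖h‖ * c := mul_le_mul_of_nonneg_left hc (by positivity)
    linarith
  have hKη : 0 ≤ K * ‖η‖ := by positivity
  have hv' : ‖v‖ ≤ 2 * (K * ‖η‖) := by linarith
  -- the pairing
  have hn1 : ∀ j, |n j| ≤ ‖n‖ := fun j => norm_le_pi_norm n j
  have hnn : 0 ≤ ‖n‖ := norm_nonneg _
  have s1 : ∑ j, n j * (D h j + (K * h j + q * x j)) = 0 := by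
    refine Finset.sum_eq_zero fun j _ => ?_
    by_cases hj : r j = b
    · rw [heq j hj, mul_zero]
    · rw [hn0 j hj, zero_mul]
  have s2 : ∑ j, n j * (D h j + (K * h j + q * x j)) =
      ∑ j, n j * D h j + K * ∑ j, n j * h j + q * ∑ j, n j * x j := by
    rw [Finset.mul_sum, Finset.mul_sum, ← Finset.sum_add_distrib, ← Finset.sum_add_distrib]
    exact Finset.sum_congr rfl fun j _ => by ring
  have s3 : ‖η‖ ^ 2 ≤ ∑ j, n j * h j := by
    have e1 : ∀ j, n j * h j = n j * η j := by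
      intro j
      by_cases hj : r j = b
      · rw [hAh j hj.le]
      · rw [hn0 j hj, zero_mul, zero_mul]
    rw [Finset.sum_congr rfl fun j _ => e1 j]
    exact hnh
  have s4 : |q * ∑ j, n j * x j| ≤ K * ‖η‖ ^ 2 / 4 := by
    rw [Finset.mul_sum]
    have h1 : |∑ j, q * (n j * x j)| ≤ ∑ _j : Fin 3, ‖n‖ * (‖v‖ / (24 * c)) := by
      refine (Finset.abs_sum_le_sum_abs _ _).trans (Finset.sum_le_sum fun j _ => ?_)
      rw [show q * (n j * x j) = n j * (q * x j) by ring, abs_mul]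
      exact mul_le_mul (hn1 j) (hqx' j) (abs_nonneg _) hnn
    have h2 : ∑ _j : Fin 3, ‖n‖ * (‖v‖ / (24 * c)) = 3 * (‖n‖ * (‖v‖ / (24 * c))) := by simp
    have h3 : ‖n‖ * (‖v‖ / (24 * c)) ≤ (c * ‖η‖) * (2 * (K * ‖η‖) / (24 * c)) := by
      refine mul_le_mul hnc ?_ (by positivity) (by positivity)
      gcongr
    have h4 : (c * ‖η‖) * (2 * (K * ‖η‖) / (24 * c)) = K * ‖η‖ ^ 2 / 12 := by
      field_simp
      ring
    linarith
  have s5 : -(3 * c * e * ‖η‖ ^ 2) ≤ ∑ j, n j * D η j := hD2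
  have s6 : |∑ j, n j * D (h - η) j| ≤ 9 * (e * c * ‖h‖ * ‖η‖) := by
    have h1 : |∑ j, n j * D (h - η) j| ≤ ∑ _j : Fin 3, 3 * (e * c * ‖h‖ * ‖η‖) := by
      refine (Finset.abs_sum_le_sum_abs _ _).trans (Finset.sum_le_sum fun j _ => ?_)
      rw [abs_mul]
      by_cases hj : r j = b
      · have h2 : |D (h - η) j| ≤ 3 * (e * ‖h‖) := by
          rw [expand D (h - η) j]
          have h3 : |∑ i, (h - η) i * D (ev i) j| ≤ ∑ _i : Fin 3, e * ‖h‖ := by
            refine (Finset.abs_sum_le_sum_abs _ _).trans (Finset.sum_le_sum fun i _ => ?_)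
            rw [abs_mul]
            rcases le_or_gt (r i) b with hi | hi
            · rw [Pi.sub_apply, hAh i hi, sub_self, abs_zero, zero_mul]
              positivity
            · rw [Pi.sub_apply, show η i = 0 from hA0 i hi.ne', sub_zero]
              calc |h i| * |D (ev i) j| ≤ ‖h‖ * e :=
                    mul_le_mul (hhj i) (hD1 j i (hj ▸ hi)) (abs_nonneg _) hh0
                _ = e * ‖h‖ := mul_comm _ _
          have h4 : ∑ _i : Fin 3, e * ‖h‖ = 3 * (e * ‖h‖) := by simp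
          linarith
        calc |n j| * |D (h - η) j| ≤ (c * ‖η‖) * (3 * (e * ‖h‖)) :=
              mul_le_mul ((hn1 j).trans hnc) h2 (abs_nonneg _) (by positivity)
          _ = 3 * (e * c * ‖h‖ * ‖η‖) := by ring
      · rw [hn0 j hj, abs_zero, zero_mul]
        positivity
    have h2 : ∑ _j : Fin 3, 3 * (e * c * ‖h‖ * ‖η‖) = 9 * (e * c * ‖h‖ * ‖η‖) := by simp; ring
    linarith
  have s7 : ∑ j, n j * D h j = ∑ j, n j * D η j + ∑ j, n j * D (h - η) j := by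
    rw [← Finset.sum_add_distrib]
    refine Finset.sum_congr rfl fun j _ => ?_
    rw [map_sub, Pi.sub_apply]
    ring
  have s8 : e * c * ‖h‖ * ‖η‖ ≤ K / 900 * ‖η‖ * ‖η‖ := mul_le_mul_of_nonneg_right hmh' hη0
  have s9 : e * c * ‖η‖ ^ 2 ≤ K / 900 * ‖η‖ ^ 2 := mul_le_mul_of_nonneg_right he9 (by positivity)
  have s10 : K * ‖η‖ ^ 2 ≤ K * ∑ j, n j * h j := mul_le_mul_of_nonneg_left s3 hK.le
  rw [s2, s7] at s1
  have a4 := (abs_le.1 s4).1
  have a6 := (abs_le.1 s6).1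
  have s11 : K * ‖η‖ ^ 2 ≤ 0 := by
    have e1 : K / 900 * ‖η‖ * ‖η‖ = K / 900 * ‖η‖ ^ 2 := by ring
    have e2 : 3 * c * e * ‖η‖ ^ 2 = 3 * (e * c * ‖η‖ ^ 2) := by ring
    nlinarith
  have s12 : ‖η‖ = 0 := by
    by_contra hne
    have : 0 < ‖η‖ := lt_of_le_of_ne hη0 (Ne.symm hne)
    have : 0 < K * ‖η‖ ^ 2 := by positivity
    linarith
  exact hAi h (norm_eq_zero.1 s12)

end Vale.Agent.P073.R2.H488
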