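import Vale.Agent.P073.R2.H580.Defs3
import Vale.Agent.P073.H183.PSD

/-!
# P073: fibrewise monotone maps in smooth coordinates are layered in smooth coordinates
-/

set_option autoImplicit false

namespace Vale.Agent.P073.R2.H488

open MeasureTheory Set Filter Topology Metric Vale.Agent.P073.St Vale.Agent.P073.AB
open Vale.Agent.P073.H183 (euc_lt)
open Vale.Agent.P073.R2.H580 (FibMonotone FibCoord Layered LayerCoord)
open scoped ContDiff

theorem le_euc' (v : V) : ‖v‖ ≤ euc v := by
  have h0 : 0 ≤ euc v := Real.sqrt_nonneg _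
  refine (pi_norm_le_iff_of_nonneg h0).2 fun i => ?_
  rw [Real.norm_eq_abs, euc]
  apply Real.le_sqrt_of_sq_le
  rw [sq_abs]
  exact Finset.single_le_sum (f := fun i => v i ^ 2) (fun j _ => sq_nonneg (v j))
    (Finset.mem_univ i)

open Classical in
/-- a fibrewise monotone map is layered, with one layer of fibre coordinates above `b₀ = 1` -/
theorem layered_of_fib {I : Finset (Fin 3)} {U : Set V} {f : V → V} (h : FibMonotone I U f) :
    Layered (fun j => if j ∈ I then 1 else 0) 1 U f := by
  obtain ⟨h1, h2, h3⟩ := h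
  have hr : ∀ j : Fin 3, (if j ∈ I then 1 else 0 : ℕ) < 1 ↔ j ∉ I := fun j => by
    by_cases hj : j ∈ I <;> simp [hj]
  refine ⟨fun j hj => h1 j ((hr j).1 hj), fun x hx v hv j hj => ?_, fun i hi a _ => ?_, 1,
    fun b hb v hv => ?_⟩
  · exact h2 x hx v (fun j hj => hv j ((hr j).2 hj)) j ((hr j).1 hj)
  · refine ⟨1, one_pos, fun x y _ _ hxy => ?_⟩
    have e1 : (if i ∈ I then 1 else 0 : ℕ) = 1 := by
      by_cases hi' : i ∈ I
      · simp [hi']
      · simp [hi'] at hi
    have e2 : x = y := by
      funext j
      refine hxy j ?_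
      show (if j ∈ I then 1 else 0 : ℕ) ≤ if i ∈ I then 1 else 0
      rw [e1]
      split_ifs <;> simp
    rw [e2]
  · by_cases hb1 : b = 1
    · have hv' : ∀ j ∉ I, v j = 0 := fun j hj => by
        refine hv j ?_
        show (if j ∈ I then 1 else 0 : ℕ) ≠ b
        rw [if_neg hj, hb1]
        simp
      refine ⟨v, hv, (one_mul _).ge, ?_, fun a ha => ?_⟩
      · rw [euc, Real.sq_sqrt (Finset.sum_nonneg fun i _ => sq_nonneg _)]
        exact le_of_eq (Finset.sum_congr rfl fun i _ => by ring)
      · obtain ⟨ρ, hρ, hm⟩ := h3 a ha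
        have hv0 : 0 < ‖v‖ + 1 := by positivity
        refine ⟨ρ / (4 * (‖v‖ + 1)), by positivity, fun x t hx ht ht' => ?_⟩
        rcases ht.eq_or_lt with rfl | ht0
        · simp
        have hx0 : ‖x - a‖ < ρ / (4 * (‖v‖ + 1)) := (le_euc' _).trans_lt hx
        have e0 : ρ / (4 * (‖v‖ + 1)) * (‖v‖ + 1) = ρ / 4 := by field_simp
        have e1 : euc (x - a) < ρ := by
          apply euc_lt hρ
          have : ρ / (4 * (‖v‖ + 1)) ≤ ρ / (4 * (‖v‖ + 1)) * (‖v‖ + 1) :=
            le_mul_of_one_le_right (by positivity) (by linarith [norm_nonneg v])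
          linarith
        have e2 : euc (x + t • v - a) < ρ := by
          apply euc_lt hρ
          have h6 : x + t • v - a = (x - a) + t • v := by abel
          rw [h6]
          refine (norm_add_le _ _).trans ?_
          rw [norm_smul, Real.norm_of_nonneg ht]
          have h7 : t * ‖v‖ ≤ ρ / (4 * (‖v‖ + 1)) * ‖v‖ :=
            mul_le_mul_of_nonneg_right ht'.le (norm_nonneg v)
          nlinarith
        have e3 := hm (x + t • v) x e2 e1 fun j hj => by simp [hv' j hj]
        have e4 : ∑ i, ((x + t • v) i - x i) * (f (x + t • v) i - f x i) =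
            t * (∑ i, v i * f (x + t • v) i - ∑ i, v i * f x i) := by
          simp only [Pi.add_apply, Pi.smul_apply, smul_eq_mul, add_sub_cancel_left]
          rw [← Finset.sum_sub_distrib, Finset.mul_sum]
          apply Finset.sum_congr rfl
          intro i _
          ring
        rw [e4] at e3
        have e5 := (mul_nonneg_iff_of_pos_left ht0).1 e3
        linarith
    · have hv0 : v = 0 := by
        funext j
        refine hv j ?_
        show (if j ∈ I then 1 else 0 : ℕ) ≠ b
        split_ifs <;> omega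
      refine ⟨0, fun _ _ => rfl, ?_, ?_, fun a _ => ⟨1, one_pos, fun x t _ _ _ => ?_⟩⟩
      · rw [hv0, one_mul]
      · rw [hv0]
        simp [euc]
      · simp

/-- **fibrewise monotone maps in smooth coordinates are layered in smooth coordinates** -/
theorem layer_of_fib (U W : Set V) (f : V → V) (h : FibCoord U W f) : LayerCoord U W f := by
  obtain ⟨I, U', W', a, b, hU', hW', ha, hb, hfib⟩ := h
  exact ⟨_, 1, U', W', a, b, hU', hW', ha, hb, layered_of_fib hfib⟩

end Vale.Agent.P073.R2.H488
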