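import Vale.Agent.P073.R2.H488.LThree
import Mathlib.Geometry.Manifold.PartitionOfUnity

/-!
# P073: gluing of increasing approximations, row L3
-/

set_option autoImplicit false

namespace Vale.Agent.P073.R2.H488

open MeasureTheory Set Filter Topology Metric Vale.Agent.P073.St
open Vale.Agent.P073.R2.H580 (eb cr flp LocUp Ind)
open Vale.Agent.P073.MM (lv lv_pos lv_succ lv_anti exists_part sub_of_pos)
open scoped ContDiff Manifold

variable {Ω Λ M : Set V} {f : V → V}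

theorem locUp_mono {N N' : Set V} (h : LocUp f N) (hs : N' ⊆ N) : LocUp f N' := fun ε hε => by
  obtain ⟨w, w1, w2, w3⟩ := h ε hε
  exact ⟨w, w1.mono hs, fun x hx => w2 x (hs hx), fun x hx => w3 x (hs hx)⟩

theorem locUp_empty {N : Set V} (hN : N = ∅) : LocUp f N := fun ε _ => by
  subst hN
  exact ⟨fun _ => 0, contDiffOn_const, fun x hx => absurd hx (notMem_empty x),
    fun x hx => absurd hx (notMem_empty x)⟩

/-- a smooth cut-off function -/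
theorem exists_cut {K O : Set V} (hK : IsCompact K) (hO : IsOpen O) (hKO : K ⊆ O) :
    ∃ (α : V → ℝ) (M : Set V), ContDiff ℝ ∞ α ∧ HasCompactSupport α ∧ tsupport α ⊆ O ∧
      (∀ y, 0 ≤ α y ∧ α y ≤ 1) ∧ IsOpen M ∧ K ⊆ M ∧ ∀ y ∈ M, α y = 1 := by
  obtain ⟨η, hη, hηO⟩ := hK.exists_cthickening_subset_open hO hKO
  have hin : K ⊆ interior (cthickening η K) :=
    (self_subset_thickening hη K).trans (interior_maximal (thickening_subset_cthickening η K)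
      isOpen_thickening)
  obtain ⟨g, g1, g2, g3⟩ := exists_contMDiffMap_one_nhds_of_subset_interior 𝓘(ℝ, V)
    hK.isClosed hin
  obtain ⟨M, hM, hKM, hM1⟩ := eventually_nhdsSet_iff_exists.1 g1
  have hsup : tsupport g ⊆ cthickening η K := by
    refine closure_minimal (fun y hy => ?_) isClosed_cthickening
    by_contra h
    exact hy (g2 y h)
  exact ⟨g, M, g.contMDiff.contDiff, hK.cthickening.of_isClosed_subset (isClosed_tsupport _) hsup,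
    hsup.trans hηO, fun y => ⟨(g3 y).1, (g3 y).2⟩, hM, hKM, hM1⟩

/-- two pieces -/
theorem locUp_union (hΩ : IsOpen Ω) (hf : St.IsHomeo Ω Λ f) (hI : Ind Ω f) {K₁ K₂ O₁ O₂ : Set V}
    (hK₁ : IsCompact K₁) (hK₂ : IsCompact K₂) (hO₁ : IsOpen O₁) (hO₂ : IsOpen O₂) (h₁ : K₁ ⊆ O₁)
    (h₂ : K₂ ⊆ O₂) (l₁ : O₁ ⊆ Λ) (l₂ : O₂ ⊆ Λ) (L₁ : LocUp f (Ω ∩ f ⁻¹' O₁))
    (L₂ : LocUp f (Ω ∩ f ⁻¹' O₂)) :
    ∃ O, IsOpen O ∧ K₁ ∪ K₂ ⊆ O ∧ O ⊆ Λ ∧ LocUp f (Ω ∩ f ⁻¹' O) := by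
  obtain ⟨α, A, a1, a2, a3, a4, a5, a6, a7⟩ := exists_cut hK₁ hO₁ h₁
  obtain ⟨β, B, b1, b2, b3, b4, b5, b6, b7⟩ := exists_cut hK₂ hO₂ h₂
  have hA : A ⊆ O₁ := fun y hy => a3 (subset_tsupport _ (by
    rw [Function.mem_support, a7 y hy]; exact one_ne_zero))
  have hB : B ⊆ O₂ := fun y hy => b3 (subset_tsupport _ (by
    rw [Function.mem_support, b7 y hy]; exact one_ne_zero))
  refine ⟨A ∪ B, a5.union b5, union_subset_union a6 b6,
    union_subset (hA.trans l₁) (hB.trans l₂), fun ε hε => ?_⟩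
  let χ : ℕ → V → ℝ := fun i => match i with
    | 0 => α
    | 1 => fun y => β y * (1 - α y)
    | _ => fun _ => 0
  let O : ℕ → Set V := fun i => match i with
    | 0 => O₁
    | 1 => O₂
    | _ => ∅
  have hχ1 : HasCompactSupport (fun y => β y * (1 - α y)) := b2.mul_right
  have hχ1' : tsupport (fun y => β y * (1 - α y)) ⊆ O₂ :=
    (closure_mono (fun y hy => left_ne_zero_of_mul hy)).trans b3
  have H1 : ∀ i y, 0 ≤ χ i y := by
    intro i y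
    match i with
    | 0 => exact (a4 y).1
    | 1 => exact mul_nonneg (b4 y).1 (by linarith [(a4 y).2])
    | (i + 2) => exact le_rfl
  have H2 : ∀ i, ContDiff ℝ ∞ (χ i) := by
    intro i
    match i with
    | 0 => exact a1
    | 1 => exact b1.mul (contDiff_const.sub a1)
    | (i + 2) => exact contDiff_const
  have H3 : ∀ i, HasCompactSupport (χ i) := by
    intro i
    match i with
    | 0 => exact a2
    | 1 => exact hχ1
    | (i + 2) => exact HasCompactSupport.zero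
  have H4 : ∀ i, tsupport (χ i) ⊆ O i := by
    intro i
    match i with
    | 0 => exact a3
    | 1 => exact hχ1'
    | (i + 2) =>
      show tsupport (fun _ : V => (0 : ℝ)) ⊆ ∅
      rw [show (fun _ : V => (0 : ℝ)) = 0 from rfl, tsupport_zero]
  have H5 : ∀ i, IsOpen (O i) := by
    intro i
    match i with
    | 0 => exact hO₁
    | 1 => exact hO₂
    | (i + 2) => exact isOpen_empty
  have H6 : ∀ i, O i ⊆ Λ := by
    intro i
    match i with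
    | 0 => exact l₁
    | 1 => exact l₂
    | (i + 2) => exact empty_subset _
  have H7 : ∀ i, LocUp f (Ω ∩ f ⁻¹' O i) := by
    intro i
    match i with
    | 0 => exact L₁
    | 1 => exact L₂
    | (i + 2) =>
      refine locUp_empty ?_
      show Ω ∩ f ⁻¹' ∅ = ∅
      simp
  have H8 : ∀ y ∈ A ∪ B, ∃ N : ℕ, ∃ ρ : ℝ, 0 < ρ ∧ ∀ z, dist z y < ρ →
      (∀ i, N ≤ i → χ i z = 0) ∧ ∑ i ∈ Finset.range N, χ i z = 1 := by
    intro y hy
    obtain ⟨ρ, hρ, hρ'⟩ := Metric.isOpen_iff.1 (a5.union b5) y hy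
    refine ⟨2, ρ, hρ, fun z hz => ⟨fun i hi => ?_, ?_⟩⟩
    · match i, hi with
      | (i + 2), _ => rfl
    · rw [Finset.sum_range_succ, Finset.sum_range_one]
      show α z + β z * (1 - α z) = 1
      rcases hρ' hz with h | h
      · rw [a7 z h]; ring
      · rw [b7 z h]; ring
  exact glue (M := A ∪ B) hΩ hf hI H1 H2 H3 H4 H5 H6 H7 H8
    (δ := fun _ => ε) continuousOn_const (fun _ _ => hε)

/-- increasing approximations near the preimage of a compact set -/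
theorem locUp_compact (hΩ : IsOpen Ω) (hΛ : IsOpen Λ) (hf : St.IsHomeo Ω Λ f) (hI : Ind Ω f)
    (h : ∀ a ∈ Ω, ∃ N : Set V, IsOpen N ∧ a ∈ N ∧ N ⊆ Ω ∧ LocUp f N) {K : Set V}
    (hK : IsCompact K) (hKΛ : K ⊆ Λ) :
    ∃ O, IsOpen O ∧ K ⊆ O ∧ O ⊆ Λ ∧ LocUp f (Ω ∩ f ⁻¹' O) := by
  have h1 : ∃ K', IsCompact K' ∧ K ⊆ K' ∧
      ∃ O, IsOpen O ∧ K' ⊆ O ∧ O ⊆ Λ ∧ LocUp f (Ω ∩ f ⁻¹' O) := by
    refine hK.induction_on (p := fun s => ∃ K', IsCompact K' ∧ s ⊆ K' ∧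
      ∃ O, IsOpen O ∧ K' ⊆ O ∧ O ⊆ Λ ∧ LocUp f (Ω ∩ f ⁻¹' O)) ?_ ?_ ?_ ?_
    · exact ⟨∅, isCompact_empty, Subset.rfl, ∅, isOpen_empty, Subset.rfl, empty_subset _,
        locUp_empty (by simp)⟩
    · rintro s t hst ⟨K', k1, k2, k3⟩
      exact ⟨K', k1, hst.trans k2, k3⟩
    · rintro s t ⟨K₁, k1, k2, O₁, k3, k4, k5, k6⟩ ⟨K₂, l1, l2, O₂, l3, l4, l5, l6⟩
      exact ⟨K₁ ∪ K₂, k1.union l1, union_subset_union k2 l2,
        locUp_union hΩ hf hI k1 l1 k3 l3 k4 l4 k5 l5 k6 l6⟩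
    · intro y hy
      obtain ⟨k, hinv, -, hkc⟩ := hf
      have hyΛ := hKΛ hy
      obtain ⟨N, n1, n2, n3, n4⟩ := h (k y) (hinv.2 y hyΛ).1
      have hOo : IsOpen (Λ ∩ k ⁻¹' N) := hkc.isOpen_inter_preimage hΛ n1
      obtain ⟨r, hr, hr'⟩ := nhds_basis_closedBall.mem_iff.1 (hOo.mem_nhds ⟨hyΛ, n2⟩)
      refine ⟨closedBall y r, mem_nhdsWithin_of_mem_nhds (closedBall_mem_nhds y hr),
        closedBall y r, isCompact_closedBall y r, Subset.rfl, _, hOo, hr', inter_subset_left,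
        locUp_mono n4 ?_⟩
      rintro x ⟨hx, -, hx'⟩
      have h2 : k (f x) ∈ N := hx'
      rwa [(hinv.1 x hx).2] at h2
  obtain ⟨K', -, k2, O, k3, k4, k5, k6⟩ := h1
  exact ⟨O, k3, k2.trans k4, k5, k6⟩

/-- **row L3**, for bounded `Λ` -/
theorem l3 (hΩ : IsOpen Ω) (hΛ : IsOpen Λ) (hΛb : Bornology.IsBounded Λ)
    (hf : St.IsHomeo Ω Λ f) (hI : Ind Ω f)
    (h : ∀ a ∈ Ω, ∃ N : Set V, IsOpen N ∧ a ∈ N ∧ N ⊆ Ω ∧ LocUp f N) (δ : V → ℝ)
    (hδ : ContinuousOn δ Ω) (hδ0 : ∀ x ∈ Ω, 0 < δ x) :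
    ∃ w : V → ℝ, ContDiffOn ℝ ∞ w Ω ∧ (∀ x ∈ Ω, |w x - f x 2| ≤ δ x) ∧
      ∀ x ∈ Ω, 0 < fderiv ℝ w x (cr f x) := by
  have hne : Λᶜ.Nonempty := by
    rw [nonempty_compl]
    rintro rfl
    exact NormedSpace.unbounded_univ ℝ V hΛb
  obtain ⟨c, c1, c2, c3, c4, c5, c6, c7⟩ := exists_part hΛ hΛb hne
  choose O o1 o2 o3 o4 using fun n => locUp_compact hΩ hΛ hf hI h (c3 n) (c4 n)
  have H8 : ∀ y ∈ Λ, ∃ N : ℕ, ∃ ρ : ℝ, 0 < ρ ∧ ∀ z, dist z y < ρ →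
      (∀ i, N ≤ i → c i z = 0) ∧ ∑ i ∈ Finset.range N, c i z = 1 := by
    intro y hy
    have hpos : 0 < infDist y Λᶜ :=
      (hΛ.isClosed_compl.notMem_iff_infDist_pos hne).1 (by simpa using hy)
    obtain ⟨N, hN⟩ := exists_nat_one_div_lt hpos
    have hN : lv N < infDist y Λᶜ := hN
    refine ⟨N + 2, infDist y Λᶜ - lv N, sub_pos.2 hN, fun z hz => ?_⟩
    have hz' : lv N < infDist z Λᶜ := by
      have h1 : infDist y Λᶜ ≤ infDist z Λᶜ + dist y z := infDist_le_infDist_add_dist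
      rw [dist_comm] at h1
      linarith
    refine ⟨fun i hi => ?_, c7 N z hz'.le (N + 1) (Nat.le_succ N)⟩
    by_contra hne'
    obtain ⟨j, rfl⟩ : ∃ j, i = j + 1 := ⟨i - 1, by omega⟩
    have h2 := c6 j z (subset_tsupport _ hne')
    have h3 : lv j ≤ lv N := lv_anti (by omega)
    linarith
  obtain ⟨w, w1, w2, w3⟩ := glue (M := Λ) hΩ hf hI c2 c1 c3 o2 o1 o3 o4 H8 hδ hδ0
  have hΩΛ : Ω ∩ f ⁻¹' Λ = Ω := by
    obtain ⟨k, hinv, -, -⟩ := hf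
    exact inter_eq_left.2 fun x hx => (hinv.1 x hx).1
  rw [hΩΛ] at w1 w2 w3
  exact ⟨w, w1, w2, w3⟩

end Vale.Agent.P073.R2.H488
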