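import Vale.Agent.P073.R2.H580.SpecT

/-!
# P073: the smooth primitive in the third variable
-/

set_option autoImplicit false

namespace Vale.Agent.P073.R2.H488

open MeasureTheory Set Filter Topology Metric Vale.Agent.P073.St
open Vale.Agent.P073.R2.H580 (eb cr flp LocUp Ind)
open scoped ContDiff Convolution

/-- the point with the third coordinate `s` -/
def up (y : V) (s : ℝ) : V := ![y 0, y 1, s]

theorem up_self (y : V) : up y (y 2) = y := by
  funext i
  fin_cases i <;> rfl

theorem dist_up {y z : V} {s t ρ : ℝ} (h : dist y z ≤ ρ) (h' : |s - t| ≤ ρ) :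
    dist (up y s) (up z t) ≤ ρ := by
  have h0 : 0 ≤ ρ := dist_nonneg.trans h
  refine (dist_pi_le_iff h0).2 fun i => ?_
  fin_cases i
  · exact (dist_le_pi_dist y z 0).trans h
  · exact (dist_le_pi_dist y z 1).trans h
  · exact h'

theorem up_sub (y : V) (t s : ℝ) : up y t - s • eb 2 = up y (t - s) := by
  funext i
  fin_cases i <;> simp [up, eb]

theorem hasDerivAt_up (y : V) (t : ℝ) : HasDerivAt (fun s => up y s) (eb 2) t := by
  rw [hasDerivAt_pi]
  intro i
  fin_cases i
  · simpa [up, eb] using hasDerivAt_const t (y 0)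
  · simpa [up, eb] using hasDerivAt_const t (y 1)
  · simpa [up, eb] using hasDerivAt_id' t

theorem continuous_up (y : V) : Continuous fun s => up y s :=
  continuous_iff_continuousAt.2 fun t => (hasDerivAt_up y t).continuousAt

theorem integrable_up {χ : V → ℝ} (h1 : Continuous χ) (h2 : HasCompactSupport χ) (y : V) :
    Integrable (fun r => χ (up y r)) := by
  obtain ⟨R, hR⟩ := h2.isCompact.isBounded.subset_closedBall (0 : V)
  refine (h1.comp (continuous_up y)).integrable_of_hasCompactSupport ?_
  refine HasCompactSupport.of_support_subset_isCompact (isCompact_closedBall (0 : ℝ) R) ?_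
  intro r hr
  have h3 := hR (subset_tsupport _ hr)
  rw [mem_closedBall_zero_iff] at h3 ⊢
  exact (norm_le_pi_norm (up y r) 2).trans h3

/-- the primitive of a smooth function with compact support in the third variable -/
theorem exists_prim {χ : V → ℝ} (h1 : ContDiff ℝ ∞ χ) (h2 : HasCompactSupport χ) :
    ∃ P : V → ℝ, ContDiff ℝ ∞ P ∧
      (∀ y s t, P (up y t) - P (up y s) = ∫ r in s..t, χ (up y r)) ∧
      ∀ y, fderiv ℝ P y (eb 2) = χ y := by
  set ι : ℝ → V := fun s => s • eb 2 with hι
  have hιc : Continuous ι := continuous_id.smul continuous_const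
  set μ : Measure V := Measure.map ι (volume.restrict (Ici (0 : ℝ))) with hμ
  have : IsLocallyFiniteMeasure μ := by
    refine ⟨fun x => ⟨ball x 1, ball_mem_nhds x one_pos, ?_⟩⟩
    rw [hμ, Measure.map_apply hιc.measurable measurableSet_ball]
    refine (Measure.restrict_le_self _).trans_lt ?_
    refine (measure_mono (t := ball (x 2) 1) ?_).trans_lt measure_ball_lt_top
    intro s hs
    have h3 : dist (ι s) x < 1 := hs
    have h4 := dist_le_pi_dist (ι s) x 2
    have h5 : ι s 2 = s := by simp [hι, eb]
    rw [h5] at h4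
    exact h4.trans_lt h3
  set P : V → ℝ := (fun _ : V => (1 : ℝ)) ⋆[ContinuousLinearMap.mul ℝ ℝ, μ] χ with hP
  have hPs : ContDiff ℝ ∞ P := h2.contDiff_convolution_right _ (locallyIntegrable_const 1) h1
  have hPe : ∀ y, P y = ∫ s in Ici (0 : ℝ), χ (y - s • eb 2) := by
    intro y
    rw [hP, convolution_def]
    simp only [ContinuousLinearMap.mul_apply', one_mul]
    rw [hμ, integral_map hιc.aemeasurable]
    exact (h1.continuous.comp (continuous_const.sub continuous_id)).aestronglyMeasurable
  have hPu : ∀ y t, P (up y t) = ∫ r in Iic t, χ (up y r) := by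
    intro y t
    rw [hPe, ← integral_indicator measurableSet_Ici, ← integral_indicator measurableSet_Iic,
      ← integral_sub_left_eq_self _ volume t]
    refine integral_congr_ae (ae_of_all _ fun r => ?_)
    simp only [indicator_apply, mem_Ici, mem_Iic, sub_nonneg, sub_sub_cancel, up_sub]
  have hPd : ∀ y s t, P (up y t) - P (up y s) = ∫ r in s..t, χ (up y r) := by
    intro y s t
    have h3 := integrable_up h1.continuous h2 y
    rw [hPu, hPu, intervalIntegral.integral_Iic_sub_Iic h3.integrableOn h3.integrableOn]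
  refine ⟨P, hPs, hPd, fun y => ?_⟩
  have h3 : HasDerivAt (fun t => P (up y t)) (fderiv ℝ P (up y (y 2)) (eb 2)) (y 2) :=
    ((hPs.differentiable (by simp)) (up y (y 2))).hasFDerivAt.comp_hasDerivAt (y 2)
      (hasDerivAt_up y (y 2))
  have h4 : HasDerivAt (fun t => P (up y 0) + ∫ r in (0 : ℝ)..t, χ (up y r))
      (χ (up y (y 2))) (y 2) :=
    (((h1.continuous.comp (continuous_up y)).integral_hasStrictDerivAt 0 (y 2)).hasDerivAt).const_add
      _
  have h5 : (fun t => P (up y t)) = fun t => P (up y 0) + ∫ r in (0 : ℝ)..t, χ (up y r) := by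
    funext t
    rw [← hPd]
    ring
  rw [← h5] at h4
  have h6 := h3.unique h4
  rwa [up_self] at h6

/-- a linear functional in coordinates -/
theorem lin_apply (L : V →L[ℝ] ℝ) (v : V) :
    L v = v 0 * L (eb 0) + v 1 * L (eb 1) + v 2 * L (eb 2) := by
  conv_lhs => rw [pi_eq_sum_univ' v]
  rw [map_sum, Fin.sum_univ_three]
  simp only [map_smul, smul_eq_mul, eb]

theorem cr_zero (f : V → V) (x : V) : fderiv ℝ (fun z => f z 0) x (cr f x) = 0 := by
  rw [lin_apply]
  simp only [cr, Matrix.cons_val_zero, Matrix.cons_val_one, Matrix.cons_val]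
  ring

theorem cr_one (f : V → V) (x : V) : fderiv ℝ (fun z => f z 1) x (cr f x) = 0 := by
  rw [lin_apply]
  simp only [cr, Matrix.cons_val_zero, Matrix.cons_val_one, Matrix.cons_val]
  ring

end Vale.Agent.P073.R2.H488
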