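import Vale.Agent.P073.R2.H488.LPrim

/-!
# P073: one piece of the gluing in the target
-/

set_option autoImplicit false

namespace Vale.Agent.P073.R2.H488

open MeasureTheory Set Filter Topology Metric Vale.Agent.P073.St
open Vale.Agent.P073.R2.H580 (eb cr flp LocUp Ind)
open scoped ContDiff

variable {Ω Λ : Set V} {f : V → V}

theorem contDiffAt_up {x : V} {w : V → ℝ} (h0 : ContDiffAt ℝ ∞ (fun z => f z 0) x)
    (h1 : ContDiffAt ℝ ∞ (fun z => f z 1) x) (hw : ContDiffAt ℝ ∞ w x) :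
    ContDiffAt ℝ ∞ (fun z => up (f z) (w z)) x := by
  rw [contDiffAt_pi]
  intro i
  fin_cases i
  · exact h0
  · exact h1
  · exact hw

/-- the derivative along the fibres -/
theorem fderiv_up {P : V → ℝ} {χ : V → ℝ} (hP : ContDiff ℝ ∞ P)
    (hPχ : ∀ y, fderiv ℝ P y (eb 2) = χ y) {x : V} {w : V → ℝ}
    (h0 : ContDiffAt ℝ ∞ (fun z => f z 0) x) (h1 : ContDiffAt ℝ ∞ (fun z => f z 1) x)
    (hw : ContDiffAt ℝ ∞ w x) :
    fderiv ℝ (fun z => P (up (f z) (w z))) x (cr f x) =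
      fderiv ℝ w x (cr f x) * χ (up (f x) (w x)) := by
  have d0 : DifferentiableAt ℝ (fun z => f z 0) x := h0.differentiableAt (by simp)
  have d1 : DifferentiableAt ℝ (fun z => f z 1) x := h1.differentiableAt (by simp)
  have dw : DifferentiableAt ℝ w x := hw.differentiableAt (by simp)
  have hΦ : HasFDerivAt (fun z => up (f z) (w z)) (ContinuousLinearMap.pi fun i : Fin 3 =>
      (![fderiv ℝ (fun z => f z 0) x, fderiv ℝ (fun z => f z 1) x, fderiv ℝ w x] :
        Fin 3 → V →L[ℝ] ℝ) i) x := by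
    rw [hasFDerivAt_pi]
    intro i
    fin_cases i
    · exact d0.hasFDerivAt
    · exact d1.hasFDerivAt
    · exact dw.hasFDerivAt
  have hc := ((hP.differentiable (by simp)) (up (f x) (w x))).hasFDerivAt.comp x hΦ
  have e1 : fderiv ℝ (fun z => P (up (f z) (w z))) x = _ := hc.fderiv
  rw [e1, ContinuousLinearMap.comp_apply, ← hPχ, ← smul_eq_mul, ← map_smul]
  congr 1
  funext i
  rw [ContinuousLinearMap.pi_apply]
  fin_cases i
  · simpa [eb] using cr_zero f x
  · simpa [eb] using cr_one f x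
  · simp [eb]

open Classical in
/-- one piece of the gluing -/
theorem stage (hΩ : IsOpen Ω) (hf : St.IsHomeo Ω Λ f) (hI : Ind Ω f) {χ : V → ℝ} {O : Set V}
    (c1 : ContDiff ℝ ∞ χ) (c2 : HasCompactSupport χ) (c3 : tsupport χ ⊆ O) (hO : IsOpen O)
    (hOΛ : O ⊆ Λ) (hL : LocUp f (Ω ∩ f ⁻¹' O)) {δ : V → ℝ} (hδ : ContinuousOn δ Ω)
    (hδ0 : ∀ x ∈ Ω, 0 < δ x) (n : ℕ) :
    ∃ P w : V → ℝ, (∀ y s t, P (up y t) - P (up y s) = ∫ r in s..t, χ (up y r)) ∧
      (∀ x ∈ Ω, |w x - f x 2| ≤ (1 / 2) ^ n) ∧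
      (∀ x ∈ Ω, |χ (up (f x) (w x)) - χ (f x)| ≤ (1 / 2) ^ (n + 2)) ∧
      (∀ x ∈ Ω, |P (up (f x) (w x)) - P (f x)| ≤ (1 / 2) ^ (n + 1) * δ x) ∧
      ∀ x ∈ Ω, ContDiffAt ℝ ∞ (fun z => P (up (f z) (w z)) - P (up (f z) (f x 2))) x ∧
        ∃ d : ℝ, fderiv ℝ (fun z => P (up (f z) (w z)) - P (up (f z) (f x 2))) x (cr f x) =
          d * χ (up (f x) (w x)) ∧ (χ (up (f x) (w x)) ≠ 0 → 0 < d) := by
  obtain ⟨k, hinv, hfc, hkc⟩ := hf
  obtain ⟨P, p1, p2, p3⟩ := exists_prim c1 c2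
  set N : Set V := Ω ∩ f ⁻¹' O with hN
  have hNo : IsOpen N := hfc.isOpen_inter_preimage hΩ hO
  obtain ⟨η, hη, hηO⟩ := c2.isCompact.exists_cthickening_subset_open hO c3
  set K : Set V := cthickening η (tsupport χ) with hK
  have hKc : IsCompact K := c2.isCompact.cthickening
  -- the lower bound of `δ`
  obtain ⟨m, hm, hmK⟩ : ∃ m, 0 < m ∧ ∀ y ∈ K, m ≤ δ (k y) := by
    refine hKc.exists_forall_le' (f := fun y => δ (k y)) ?_ fun y hy => hδ0 _ ?_
    · exact hδ.comp (hkc.mono (hηO.trans hOΛ)) fun y hy => (hinv.2 y (hOΛ (hηO hy))).1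
    · exact (hinv.2 y (hOΛ (hηO hy))).1
  obtain ⟨B, hB⟩ := c2.exists_bound_of_continuous c1.continuous
  have hB0 : 0 ≤ B := (norm_nonneg _).trans (hB 0)
  obtain ⟨τ, hτ, hτ'⟩ := Metric.uniformContinuous_iff.1
    (c2.uniformContinuous_of_continuous c1.continuous) ((1 / 2) ^ (n + 2)) (by positivity)
  set ε : ℝ := min (min η (τ / 2)) (min ((1 / 2) ^ n) ((1 / 2) ^ (n + 1) * m / (B + 1))) with hε
  have hε0 : 0 < ε := lt_min (lt_min hη (by positivity)) (lt_min (by positivity) (by positivity))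
  have e1 : ε ≤ η := (min_le_left _ _).trans (min_le_left _ _)
  have e2 : ε ≤ τ / 2 := (min_le_left _ _).trans (min_le_right _ _)
  have e3 : ε ≤ (1 / 2) ^ n := (min_le_right _ _).trans (min_le_left _ _)
  have e4 : ε ≤ (1 / 2) ^ (n + 1) * m / (B + 1) := (min_le_right _ _).trans (min_le_right _ _)
  have e5 : B * ε ≤ (1 / 2) ^ (n + 1) * m := by
    rw [le_div_iff₀ (by positivity)] at e4
    nlinarith
  obtain ⟨w₀, w1, w2, w3⟩ := hL ε hε0
  set w : V → ℝ := fun x => if x ∈ N then w₀ x else f x 2 with hw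
  have hwN : ∀ x ∈ N, w x = w₀ x := fun x hx => if_pos hx
  have hwN' : ∀ x, x ∉ N → w x = f x 2 := fun x hx => if_neg hx
  have hwε : ∀ x, |w x - f x 2| ≤ ε := by
    intro x
    by_cases hx : x ∈ N
    · rw [hwN x hx]
      exact w2 x hx
    · rw [hwN' x hx, sub_self, abs_zero]
      exact hε0.le
  have hseg : ∀ x, ∀ s, |s - f x 2| ≤ ε → ∀ r ∈ uIcc (f x 2) s, dist (up (f x) r) (f x) ≤ ε := by
    intro x s hs r hr
    have h1 : |r - f x 2| ≤ ε := (abs_sub_left_of_mem_uIcc hr).trans hs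
    have h2 := dist_up (y := f x) (z := f x) (s := r) (t := f x 2) (ρ := ε)
      (by rw [dist_self]; exact hε0.le) h1
    rwa [up_self] at h2
  -- the integral vanishes off `K`
  have hoff : ∀ x, f x ∉ K → ∀ s, |s - f x 2| ≤ ε → P (up (f x) s) - P (f x) = 0 := by
    intro x hx s hs
    have h1 : P (up (f x) s) - P (up (f x) (f x 2)) = _ := p2 (f x) (f x 2) s
    rw [up_self] at h1
    rw [h1, intervalIntegral.integral_congr (g := fun _ => (0 : ℝ)), intervalIntegral.integral_zero]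
    intro r hr
    by_contra hne
    apply hx
    have h2 : up (f x) r ∈ tsupport χ := subset_tsupport _ hne
    exact mem_cthickening_of_dist_le _ _ _ _ h2
      (by rw [dist_comm]; exact (hseg x s hs r hr).trans e1)
  refine ⟨P, w, p2, fun x _ => (hwε x).trans e3, fun x hx => ?_, fun x hx => ?_, fun x hx => ?_⟩
  · have h1 := hseg x (w x) (hwε x) (w x) right_mem_uIcc
    have h2 := hτ' (h1.trans_lt (e2.trans_lt (by linarith)))
    rw [Real.dist_eq] at h2
    exact h2.le
  · by_cases hxK : f x ∈ K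
    · have h1 : P (up (f x) (w x)) - P (up (f x) (f x 2)) = _ := p2 (f x) (f x 2) (w x)
      rw [up_self] at h1
      rw [h1]
      have h2 := intervalIntegral.norm_integral_le_of_norm_le_const (a := f x 2) (b := w x)
        (f := fun r => χ (up (f x) r)) (C := B) fun r _ => hB _
      rw [Real.norm_eq_abs] at h2
      refine h2.trans ?_
      have h3 := hmK _ hxK
      rw [(hinv.1 x hx).2] at h3
      calc B * |w x - f x 2| ≤ B * ε := mul_le_mul_of_nonneg_left (hwε x) hB0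
        _ ≤ (1 / 2) ^ (n + 1) * m := e5
        _ ≤ (1 / 2) ^ (n + 1) * δ x := mul_le_mul_of_nonneg_left h3 (by positivity)
    · rw [hoff x hxK _ (hwε x), abs_zero]
      have := hδ0 x hx
      positivity
  · have h0 : ContDiffAt ℝ ∞ (fun z => f z 0) x := hI.1.contDiffAt (hΩ.mem_nhds hx)
    have h1 : ContDiffAt ℝ ∞ (fun z => f z 1) x := hI.2.1.contDiffAt (hΩ.mem_nhds hx)
    by_cases hxN : x ∈ N
    · have hw0 : ContDiffAt ℝ ∞ w₀ x := w1.contDiffAt (hNo.mem_nhds hxN)
      have hev : w =ᶠ[𝓝 x] w₀ := by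
        filter_upwards [hNo.mem_nhds hxN] with z hz using hwN z hz
      have hws : ContDiffAt ℝ ∞ w x := hw0.congr_of_eventuallyEq hev
      have s1 : ContDiffAt ℝ ∞ (fun z => P (up (f z) (w z))) x :=
        p1.contDiffAt.comp x (contDiffAt_up h0 h1 hws)
      have s2 : ContDiffAt ℝ ∞ (fun z => P (up (f z) (f x 2))) x :=
        p1.contDiffAt.comp x (contDiffAt_up h0 h1 contDiffAt_const)
      refine ⟨s1.sub s2, fderiv ℝ w₀ x (cr f x), ?_, fun _ => w3 x hxN⟩
      have h2 : fderiv ℝ (fun z => P (up (f z) (w z)) - P (up (f z) (f x 2))) x =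
          fderiv ℝ (fun z => P (up (f z) (w z))) x -
            fderiv ℝ (fun z => P (up (f z) (f x 2))) x :=
        fderiv_fun_sub (s1.differentiableAt (by simp)) (s2.differentiableAt (by simp))
      have h3 := fderiv_up p1 p3 h0 h1 hws
      have h4 := fderiv_up p1 p3 h0 h1 (contDiffAt_const (c := f x 2))
      rw [h2, sub_apply, h3, h4, hev.fderiv_eq]
      simp
    · have hxO : f x ∉ O := fun h => hxN ⟨hx, h⟩
      have hxK : f x ∉ K := fun h => hxO (hηO h)
      have hfx : ContinuousAt f x := hfc.continuousAt (hΩ.mem_nhds hx)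
      have hev : (fun z => P (up (f z) (w z)) - P (up (f z) (f x 2))) =ᶠ[𝓝 x] fun _ => 0 := by
        have g1 : ∀ᶠ z in 𝓝 x, f z ∉ K :=
          hfx.eventually (hKc.isClosed.isOpen_compl.mem_nhds hxK)
        have g2 : ∀ᶠ z in 𝓝 x, dist (f z) (f x) < ε := hfx.eventually (ball_mem_nhds _ hε0)
        filter_upwards [g1, g2] with z hz hz'
        have h2 := hoff z hz _ (hwε z)
        have h3 : |f x 2 - f z 2| ≤ ε := by
          have h4 := dist_le_pi_dist (f z) (f x) 2
          rw [Real.dist_eq, abs_sub_comm] at h4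
          exact h4.trans hz'.le
        have h4 := hoff z hz _ h3
        linarith
      refine ⟨contDiffAt_const.congr_of_eventuallyEq hev, 1, ?_, fun _ => one_pos⟩
      have h2 : χ (up (f x) (w x)) = 0 := by
        rw [hwN' x hxN, up_self]
        by_contra hne
        exact hxO (c3 (subset_tsupport _ hne))
      rw [hev.fderiv_eq, h2]
      simp

end Vale.Agent.P073.R2.H488
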