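import Vale.Agent.P073.R2.H488.LStage
import Vale.Agent.P073.MM.Part

/-!
# P073: gluing in the target
-/

set_option autoImplicit false

namespace Vale.Agent.P073.R2.H488

open MeasureTheory Set Filter Topology Metric Vale.Agent.P073.St
open Vale.Agent.P073.R2.H580 (eb cr flp LocUp Ind)
open Vale.Agent.P073.MM (lv lv_pos lv_succ lv_anti exists_part sub_of_pos)
open scoped ContDiff

variable {Ω Λ M : Set V} {f : V → V}

/-- the gluing with a locally finite partition of unity in the target -/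
theorem glue (hΩ : IsOpen Ω) (hf : St.IsHomeo Ω Λ f) (hI : Ind Ω f) {χ : ℕ → V → ℝ}
    {O : ℕ → Set V} (c0 : ∀ i y, 0 ≤ χ i y) (c1 : ∀ i, ContDiff ℝ ∞ (χ i))
    (c2 : ∀ i, HasCompactSupport (χ i)) (c3 : ∀ i, tsupport (χ i) ⊆ O i) (hO : ∀ i, IsOpen (O i))
    (hOΛ : ∀ i, O i ⊆ Λ) (hL : ∀ i, LocUp f (Ω ∩ f ⁻¹' O i))
    (c5 : ∀ y ∈ M, ∃ N : ℕ, ∃ ρ : ℝ, 0 < ρ ∧ ∀ z, dist z y < ρ → (∀ i, N ≤ i → χ i z = 0) ∧
      ∑ i ∈ Finset.range N, χ i z = 1) {δ : V → ℝ} (hδ : ContinuousOn δ Ω)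
    (hδ0 : ∀ x ∈ Ω, 0 < δ x) :
    ∃ w : V → ℝ, ContDiffOn ℝ ∞ w (Ω ∩ f ⁻¹' M) ∧ (∀ x ∈ Ω ∩ f ⁻¹' M, |w x - f x 2| ≤ δ x) ∧
      ∀ x ∈ Ω ∩ f ⁻¹' M, 0 < fderiv ℝ w x (cr f x) := by
  have hst := fun i => stage hΩ hf hI (c1 i) (c2 i) (c3 i) (hO i) (hOΛ i) (hL i) hδ hδ0 i
  choose P w p1 p2 p3 p4 p5 using hst
  have hfc : ContinuousOn f Ω := by
    obtain ⟨k, -, h, -⟩ := hf
    exact h
  set T : ℕ → V → ℝ := fun i x => P i (up (f x) (w i x)) - P i (f x) with hT
  have hup : ∀ x, up (f x) (f x 2) = f x := fun x => up_self (f x)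
  -- the integral formula
  have hTi : ∀ i x, T i x = ∫ r in (f x 2)..(w i x), χ i (up (f x) r) := by
    intro i x
    have := p1 i (f x) (f x 2) (w i x)
    rwa [hup] at this
  -- far pieces vanish
  have hfar : ∀ y N ρ, (∀ z, dist z y < ρ → ∀ i, N ≤ i → χ i z = 0) →
      ∀ x ∈ Ω, dist (f x) y < ρ / 2 → ∀ i, N ≤ i → (1 / 2 : ℝ) ^ i < ρ / 2 → T i x = 0 := by
    intro y N ρ h x hx hxy i hi hi'
    rw [hTi, intervalIntegral.integral_congr (g := fun _ => (0 : ℝ)), intervalIntegral.integral_zero]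
    intro r hr
    refine h _ ?_ i hi
    have h1 : |r - f x 2| ≤ (1 / 2) ^ i := (abs_sub_left_of_mem_uIcc hr).trans (p2 i x hx)
    have h2 := dist_up (y := f x) (z := f x) (s := r) (t := f x 2) (ρ := (1 / 2) ^ i)
      (by rw [dist_self]; positivity) h1
    rw [hup] at h2
    have h3 := dist_triangle (up (f x) r) (f x) y
    linarith
  -- the local form
  have hloc : ∀ x₀ ∈ Ω ∩ f ⁻¹' M, ∃ N : ℕ, (∀ i, N ≤ i → T i x₀ = 0) ∧
      ∑ i ∈ Finset.range N, χ i (f x₀) = 1 ∧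
      (fun x => f x 2 + ∑' i, T i x) =ᶠ[𝓝 x₀] fun x => f x₀ 2 +
        ∑ i ∈ Finset.range N, (P i (up (f x) (w i x)) - P i (up (f x) (f x₀ 2))) := by
    rintro x₀ ⟨hx₀, hxM⟩
    obtain ⟨N₀, ρ, hρ, hc⟩ := c5 (f x₀) hxM
    obtain ⟨N₁, hN₁⟩ := exists_pow_lt_of_lt_one (half_pos hρ) (by norm_num : (1 / 2 : ℝ) < 1)
    set N : ℕ := max N₀ N₁ with hN
    have hsm : ∀ i, N ≤ i → (1 / 2 : ℝ) ^ i < ρ / 2 := fun i hi =>
      (pow_le_pow_of_le_one (by norm_num) (by norm_num) ((le_max_right _ _).trans hi)).trans_lt hN₁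
    have hc1 : ∀ z, dist z (f x₀) < ρ → ∀ i, N ≤ i → χ i z = 0 := fun z hz i hi =>
      (hc z hz).1 i ((le_max_left _ _).trans hi)
    have hc2 : ∀ z, dist z (f x₀) < ρ → ∑ i ∈ Finset.range N, χ i z = 1 := by
      intro z hz
      rw [← (hc z hz).2]
      refine (Finset.sum_subset (Finset.range_mono (le_max_left _ _)) fun i _ hi => ?_).symm
      exact (hc z hz).1 i (by simpa using hi)
    refine ⟨N, fun i hi => hfar (f x₀) N ρ hc1 x₀ hx₀ (by rw [dist_self]; linarith) i hi (hsm i hi),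
      hc2 _ (by rw [dist_self]; exact hρ), ?_⟩
    have g1 : ∀ᶠ x in 𝓝 x₀, dist (f x) (f x₀) < ρ / 2 :=
      (hfc.continuousAt (hΩ.mem_nhds hx₀)).eventually (ball_mem_nhds _ (half_pos hρ))
    filter_upwards [hΩ.mem_nhds hx₀, g1] with x hx hxd
    have h1 : ∑' i, T i x = ∑ i ∈ Finset.range N, T i x := by
      refine tsum_eq_sum fun i hi => ?_
      have hi' : N ≤ i := by simpa using hi
      exact hfar (f x₀) N ρ hc1 x hx hxd i hi' (hsm i hi')
    -- the partition of unity along the segment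
    have h2 : ∑ i ∈ Finset.range N, (P i (f x) - P i (up (f x) (f x₀ 2))) = f x 2 - f x₀ 2 := by
      have e1 : ∀ i, P i (f x) - P i (up (f x) (f x₀ 2)) =
          ∫ r in (f x₀ 2)..(f x 2), χ i (up (f x) r) := by
        intro i
        have := p1 i (f x) (f x₀ 2) (f x 2)
        rwa [hup] at this
      simp only [e1]
      have hii : ∀ i ∈ Finset.range N, IntervalIntegrable (fun r => χ i (up (f x) r)) volume
          (f x₀ 2) (f x 2) := fun i _ =>
        ((c1 i).continuous.comp (continuous_up (f x))).intervalIntegrable _ _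
      rw [← intervalIntegral.integral_finsetSum hii]
      rw [intervalIntegral.integral_congr (g := fun _ => (1 : ℝ)), intervalIntegral.integral_const]
      · simp
      · intro r hr
        refine hc2 _ ?_
        have h3 : |f x 2 - f x₀ 2| ≤ dist (f x) (f x₀) := by
          have := dist_le_pi_dist (f x) (f x₀) 2
          rwa [Real.dist_eq] at this
        have h4 : |r - f x₀ 2| ≤ dist (f x) (f x₀) := (abs_sub_left_of_mem_uIcc hr).trans h3
        have h5 := dist_up (y := f x) (z := f x₀) (s := r) (t := f x₀ 2) le_rfl h4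
        rw [hup] at h5
        exact h5.trans_lt (by linarith)
    rw [h1]
    have h3 : ∑ i ∈ Finset.range N, (P i (up (f x) (w i x)) - P i (up (f x) (f x₀ 2))) =
        ∑ i ∈ Finset.range N, T i x +
          ∑ i ∈ Finset.range N, (P i (f x) - P i (up (f x) (f x₀ 2))) := by
      rw [← Finset.sum_add_distrib]
      refine Finset.sum_congr rfl fun i _ => ?_
      simp only [hT]
      ring
    rw [h3, h2]
    ring
  have hgeo : ∀ N : ℕ, ∑ i ∈ Finset.range N, (1 / 2 : ℝ) ^ (i + 1) ≤ 1 := by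
    intro N
    have h1 : ∀ N : ℕ, ∑ i ∈ Finset.range N, (1 / 2 : ℝ) ^ (i + 1) = 1 - (1 / 2) ^ N := by
      intro N
      induction N with
      | zero => simp
      | succ N ih =>
        rw [Finset.sum_range_succ, ih]
        ring
    rw [h1]
    have : (0 : ℝ) < (1 / 2) ^ N := by positivity
    linarith
  refine ⟨fun x => f x 2 + ∑' i, T i x, fun x₀ hx₀ => ?_, fun x₀ hx₀ => ?_, fun x₀ hx₀ => ?_⟩
  · obtain ⟨N, -, -, hev⟩ := hloc x₀ hx₀
    refine (ContDiffAt.congr_of_eventuallyEq ?_ hev).contDiffWithinAt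
    exact contDiffAt_const.add (ContDiffAt.sum fun i _ => (p5 i x₀ hx₀.1).1)
  · obtain ⟨N, h0, -, -⟩ := hloc x₀ hx₀
    have h1 : ∑' i, T i x₀ = ∑ i ∈ Finset.range N, T i x₀ :=
      tsum_eq_sum fun i hi => h0 i (by simpa using hi)
    show |f x₀ 2 + ∑' i, T i x₀ - f x₀ 2| ≤ δ x₀
    rw [add_sub_cancel_left, h1]
    calc |∑ i ∈ Finset.range N, T i x₀| ≤ ∑ i ∈ Finset.range N, |T i x₀| :=
          Finset.abs_sum_le_sum_abs _ _
      _ ≤ ∑ i ∈ Finset.range N, (1 / 2 : ℝ) ^ (i + 1) * δ x₀ :=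
          Finset.sum_le_sum fun i _ => p4 i x₀ hx₀.1
      _ = (∑ i ∈ Finset.range N, (1 / 2 : ℝ) ^ (i + 1)) * δ x₀ := by rw [Finset.sum_mul]
      _ ≤ 1 * δ x₀ := mul_le_mul_of_nonneg_right (hgeo N) (hδ0 x₀ hx₀.1).le
      _ = δ x₀ := one_mul _
  · obtain ⟨N, -, hsum, hev⟩ := hloc x₀ hx₀
    have hd : ∀ i, ∃ d : ℝ, fderiv ℝ (fun z => P i (up (f z) (w i z)) - P i (up (f z) (f x₀ 2))) x₀
        (cr f x₀) = d * χ i (up (f x₀) (w i x₀)) ∧ (χ i (up (f x₀) (w i x₀)) ≠ 0 → 0 < d) :=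
      fun i => (p5 i x₀ hx₀.1).2
    choose d d1 d2 using hd
    have e1 : fderiv ℝ (fun x => f x 2 + ∑' i, T i x) x₀ (cr f x₀) =
        ∑ i ∈ Finset.range N, d i * χ i (up (f x₀) (w i x₀)) := by
      rw [hev.fderiv_eq, fderiv_const_add, fderiv_fun_sum fun i _ =>
        (p5 i x₀ hx₀.1).1.differentiableAt (by simp), sum_apply]
      exact Finset.sum_congr rfl fun i _ => d1 i
    rw [e1]
    have hnn : ∀ i ∈ Finset.range N, 0 ≤ d i * χ i (up (f x₀) (w i x₀)) := by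
      intro i _
      by_cases h : χ i (up (f x₀) (w i x₀)) = 0
      · rw [h, mul_zero]
      · exact mul_nonneg (d2 i h).le (c0 i _)
    have hbig : 1 / 2 ≤ ∑ i ∈ Finset.range N, χ i (up (f x₀) (w i x₀)) := by
      have h1 : ∑ i ∈ Finset.range N, (χ i (f x₀) - χ i (up (f x₀) (w i x₀))) ≤ 1 / 2 := by
        calc ∑ i ∈ Finset.range N, (χ i (f x₀) - χ i (up (f x₀) (w i x₀)))
            ≤ ∑ i ∈ Finset.range N, (1 / 2 : ℝ) ^ (i + 2) := by
              refine Finset.sum_le_sum fun i _ => ?_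
              have := p3 i x₀ hx₀.1
              rw [abs_sub_comm] at this
              exact (le_abs_self _).trans this
          _ = (∑ i ∈ Finset.range N, (1 / 2 : ℝ) ^ (i + 1)) * (1 / 2) := by
              rw [Finset.sum_mul]
              exact Finset.sum_congr rfl fun i _ => by ring
          _ ≤ 1 * (1 / 2) := mul_le_mul_of_nonneg_right (hgeo N) (by norm_num)
          _ = 1 / 2 := one_mul _
      rw [Finset.sum_sub_distrib, hsum] at h1
      linarith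
    obtain ⟨i, hi, hi'⟩ : ∃ i ∈ Finset.range N, χ i (up (f x₀) (w i x₀)) ≠ 0 := by
      by_contra hcon
      push Not at hcon
      rw [Finset.sum_eq_zero hcon] at hbig
      linarith
    refine Finset.sum_pos' hnn ⟨i, hi, mul_pos (d2 i hi') ?_⟩
    exact lt_of_le_of_ne (c0 i _) (Ne.symm hi')

end Vale.Agent.P073.R2.H488
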