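import Vale.Agent.P073.R2.H488.Step3
import Vale.Agent.P073.MM.H694.Pert2

/-!
# P073: homeomorphisms whose weak derivative is block triangular with positive semidefinite blocks
-/

namespace Vale.Agent.P073.R2.H488

open MeasureTheory Set Filter Topology Metric Vale.Agent.P073.St Vale.Agent.P073.AB
open Vale.Agent.P073.SQ (ev)
open Vale.Agent.P073.PK (cl_apply)
open Vale.Agent.P073.MM
open scoped ContDiff ENNReal

variable {p : ℝ} {U W : Set V} {f : V → V} {F : V → Mat} {r : Fin 3 → ℕ} {κ : V → ℝ} {R t : ℝ}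

/-- the levels from the top down to `b` are done -/
theorem steps (C : Ctx p U W f F r κ R t) {L : ℕ} (hL : ∀ j, r j < L) :
    ∀ n : ℕ, n ≤ L → ∀ ε : ℝ, 0 < ε → ∃ (M : V → V) (Z : V → ℝ), ContDiffOn ℝ ∞ M U ∧
      (∀ x ∈ U, ∀ v, fderiv ℝ M x v = 0 → v = 0) ∧
      (∀ x ∈ U, ∀ j, r j < L - n → M x j = x j) ∧
      (∀ x ∈ U, ∀ j, L - n ≤ r j → |M x j - f x j| ≤ 2 * R * κ (f x)) ∧
      (∀ x ∈ U, ∀ j, L - n ≤ r j → ∀ v, |fderiv ℝ M x v j - cl (F x) v j| ≤
        (Z x + n * t * (1 + ‖cl (F x)‖)) * ‖v‖) ∧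
      (∀ x, 0 ≤ Z x) ∧ AEMeasurable Z (volume.restrict U) ∧
      ∫⁻ x in U, ENNReal.ofReal (Z x ^ p) ≤ ENNReal.ofReal ε := by
  have hp0 : 0 < p := by linarith [C.hp]
  intro n
  induction n with
  | zero =>
    intro _ ε hε
    refine ⟨fun x => x, fun _ => 0, contDiffOn_id, fun x _ v hv => ?_, fun x _ j _ => rfl,
      fun x _ j hj => ?_, fun x _ j hj => ?_, fun x => le_rfl, aemeasurable_const, ?_⟩
    · have h1 : fderiv ℝ (fun x : V => x) x = ContinuousLinearMap.id ℝ V := fderiv_id'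
      rw [h1] at hv
      exact hv
    · have := hL j
      omega
    · have := hL j
      omega
    · simp [Real.zero_rpow hp0.ne']
  | succ n ih =>
    intro hn ε hε
    have h2p : (0 : ℝ) < 2 ^ p := by positivity
    obtain ⟨N, Z, n1, n2, n3, n4, n5, n6, n7, n8⟩ := ih (by omega) (ε / (2 * 2 ^ p)) (by positivity)
    have hb : L - (n + 1) + 1 = L - n := by omega
    have ht0 := C.ht0
    obtain ⟨M, X, m1, m2, m3, m4, m5, m6, m7, m8⟩ := step C (L - (n + 1)) (N := N)
      (B := fun x => Z x + n * t * (1 + ‖cl (F x)‖)) n1 n2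
      (fun x hx j hj => n3 x hx j (by omega)) (fun x hx j hj => n4 x hx j (by omega))
      (fun x _ => by have := n6 x; positivity) (fun x hx j hj => n5 x hx j (by omega))
      (ε := ε / (2 * 2 ^ p * 2 ^ p)) (by positivity)
    refine ⟨M, fun x => Z x + 2 * X x, m1, m2, fun x hx j hj => m3 x hx j hj,
      fun x hx j hj => m4 x hx j hj, fun x hx j hj v => (m5 x hx j hj v).trans (le_of_eq ?_),
      fun x => by have := n6 x; have := m6 x; positivity, n7.add (m7.const_mul 2), ?_⟩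
    · push_cast
      ring
    · calc ∫⁻ x in U, ENNReal.ofReal ((Z x + 2 * X x) ^ p)
          ≤ ∫⁻ x in U, ENNReal.ofReal (2 ^ p) * (ENNReal.ofReal (Z x ^ p) +
              ENNReal.ofReal (2 ^ p) * ENNReal.ofReal (X x ^ p)) := by
            refine lintegral_mono fun x => ?_
            have z0 := n6 x
            have x0 := m6 x
            rw [← ENNReal.ofReal_mul (by positivity), ← ENNReal.ofReal_add (by positivity)
              (by positivity), ← ENNReal.ofReal_mul (by positivity)]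
            apply ENNReal.ofReal_le_ofReal
            refine (add_pow_le hp0.le z0 (by positivity)).trans ?_
            rw [Real.mul_rpow (by norm_num) x0]
        _ = ENNReal.ofReal (2 ^ p) * ((∫⁻ x in U, ENNReal.ofReal (Z x ^ p)) +
              ENNReal.ofReal (2 ^ p) * ∫⁻ x in U, ENNReal.ofReal (X x ^ p)) := by
            rw [lintegral_const_mul' _ _ ENNReal.ofReal_ne_top, lintegral_add_left'
              (n7.pow_const p).ennreal_ofReal, lintegral_const_mul' _ _ ENNReal.ofReal_ne_top]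
        _ ≤ ENNReal.ofReal (2 ^ p) * (ENNReal.ofReal (ε / (2 * 2 ^ p)) +
              ENNReal.ofReal (2 ^ p) * ENNReal.ofReal (ε / (2 * 2 ^ p * 2 ^ p))) := by
            gcongr
        _ = ENNReal.ofReal ε := by
            rw [← ENNReal.ofReal_mul (by positivity), ← ENNReal.ofReal_add (by positivity)
              (by positivity), ← ENNReal.ofReal_mul (by positivity)]
            congr 1
            field_simp
            ring

/-- **homeomorphisms with flagged weak derivative are finely approximable** -/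
theorem fa_flag (hp : 1 ≤ p) (hU : IsOpen U) (hUb : Bornology.IsBounded U) (hW : IsOpen W)
    (hWc : Wᶜ.Nonempty) (hf : St.IsHomeo U W f) (hF : St.IsSobolev p U f F)
    (hfl : ∀ᵐ x ∂(volume : Measure V), x ∈ U → Flag r (F x)) {δ₀ : V → ℝ}
    (hδ₀ : ContinuousOn δ₀ U) (hδ₀0 : ∀ x ∈ U, 0 < δ₀ x)
    (hN : ∀ g : V → V, ContDiffOn ℝ ∞ g U → (∀ x ∈ U, ∀ v, fderiv ℝ g x v = 0 → v = 0) →
      (∀ x ∈ U, ‖g x - f x‖ ≤ δ₀ x) → St.IsDiffeo U W g) :
    _root_.Vale.Agent.P073.H694.FA p U W f F := by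
  intro σ hσ hσ0 ε hε
  have hp0 : 0 < p := by linarith
  obtain ⟨k, ⟨hk1, hk2⟩, hfc, hkc⟩ := id hf
  obtain ⟨R, hR1, hR⟩ : ∃ R : ℝ, 1 ≤ R ∧ ∀ x ∈ U, ‖x‖ ≤ R := by
    obtain ⟨R, hR⟩ := hUb.exists_norm_le
    exact ⟨max R 1, le_max_right _ _, fun x hx => (hR x hx).trans (le_max_left _ _)⟩
  have hR0 : 0 < R := by linarith
  have hv : volume U ≠ ⊤ := hUb.measure_lt_top.ne
  obtain ⟨L, hL⟩ : ∃ L : ℕ, ∀ j, r j < L :=
    ⟨r 0 + r 1 + r 2 + 1, fun j => by fin_cases j <;> simp <;> omega⟩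
  set EF : ℝ≥0∞ := ∫⁻ x in U, ENNReal.ofReal (‖cl (F x)‖ ^ p) with hEF
  have hFe : EF ≠ ⊤ := by
    have h1 := PK.IsSob.lintegral_ne_top hp hF
    simp_rw [hEF, ofReal_norm_rpow hp0.le]
    exact h1
  -- the constant `t`
  obtain ⟨t, ht, ht1, htε⟩ : ∃ t : ℝ, 0 < t ∧ t ≤ 1 ∧ ENNReal.ofReal (t ^ p) * volume U +
      3 * (ENNReal.ofReal (3 ^ p) * (ENNReal.ofReal t +
        ENNReal.ofReal ((L * t) ^ p) * volume U + ENNReal.ofReal ((L * t) ^ p) * EF)) ≤
          ENNReal.ofReal ε := by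
    have t0 : Tendsto (fun n : ℕ => 1 / ((n : ℝ) + 1)) atTop (𝓝 0) :=
      tendsto_one_div_add_atTop_nhds_zero_nat
    have t1 : Tendsto (fun n : ℕ => ENNReal.ofReal (1 / ((n : ℝ) + 1))) atTop (𝓝 0) := by
      simpa using ENNReal.tendsto_ofReal t0
    have t2 : ∀ c : ℝ, Tendsto (fun n : ℕ => ENNReal.ofReal ((c * (1 / ((n : ℝ) + 1))) ^ p))
        atTop (𝓝 0) := by
      intro c
      have h1 : Tendsto (fun n : ℕ => c * (1 / ((n : ℝ) + 1))) atTop (𝓝 0) := by
        simpa using t0.const_mul c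
      have h2 : Tendsto (fun n : ℕ => (c * (1 / ((n : ℝ) + 1))) ^ p) atTop (𝓝 (0 ^ p)) :=
        h1.rpow_const (Or.inr hp0.le)
      rw [Real.zero_rpow hp0.ne'] at h2
      simpa using ENNReal.tendsto_ofReal h2
    have t3 := ENNReal.Tendsto.mul_const (b := volume U) (t2 1) (Or.inr hv)
    rw [zero_mul] at t3
    have t3' := ENNReal.Tendsto.mul_const (b := volume U) (t2 L) (Or.inr hv)
    rw [zero_mul] at t3'
    have t4 := ENNReal.Tendsto.mul_const (b := EF) (t2 L) (Or.inr hFe)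
    rw [zero_mul] at t4
    have t6 := ENNReal.Tendsto.const_mul (a := ENNReal.ofReal (3 ^ p)) ((t1.add t3').add t4)
      (Or.inr ENNReal.ofReal_ne_top)
    have t7 := t3.add (ENNReal.Tendsto.const_mul (a := 3) t6 (Or.inr (by norm_num)))
    simp only [add_zero, mul_zero, one_mul] at t7
    obtain ⟨n, hn⟩ := (t7.eventually (gt_mem_nhds (ENNReal.ofReal_pos.2 hε))).exists
    refine ⟨1 / ((n : ℝ) + 1), by positivity, ?_, hn.le⟩
    rw [div_le_one (by positivity)]
    have : (0 : ℝ) ≤ n := Nat.cast_nonneg n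
    linarith
  -- the closeness
  set s : V → ℝ := fun x => min (min (σ x) t) (δ₀ x) with hs
  have hsc : ContinuousOn s U := (hσ.inf continuousOn_const).inf hδ₀
  have hs0 : ∀ x ∈ U, 0 < s x := fun x hx =>
    lt_min (lt_min (hσ0 x hx) ht) (hδ₀0 x hx)
  have hkm : MapsTo k W U := fun y hy => (hk2 y hy).1
  set δ : V → ℝ := fun y => min (t / (24 * R)) (s (k y) / (2 * R)) with hδ
  have hδc : ContinuousOn δ W := continuousOn_const.inf ((hsc.comp hkc hkm).div_const _)
  have hδ0 : ∀ y ∈ W, 0 < δ y := fun y hy =>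
    lt_min (by positivity) (div_pos (hs0 _ (hkm hy)) (by positivity))
  obtain ⟨κ, hκs, hκ, hκ0⟩ := Vale.Agent.P073.exists_kappa hW hδc hδ0
  have hδt : ∀ y, δ y ≤ t / (24 * R) := fun y => min_le_left _ _
  have hδt1 : t / (24 * R) ≤ t := by
    apply div_le_self ht.le
    linarith
  have C : Ctx p U W f F r κ R t :=
    { hp := hp
      hU := hU
      hUb := hUb
      hfc := hfc
      hfW := fun x hx => (hk1 x hx).1
      hF := hF
      hfl := hfl
      hR := hR1
      hUR := hR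
      ht0 := ht
      ht1 := ht1
      hκs := hκs
      hκ0 := fun y hy => (hκ y hy).1
      hκt := fun y => by
        by_cases hy : y ∈ W
        · exact (hκ y hy).2.1.le.trans ((hδt y).trans hδt1)
        · rw [hκ0 y hy]; exact ht.le
      hκd := fun y => by
        by_cases hy : y ∈ W
        · exact (hκ y hy).2.2.le.trans (hδt y)
        · have hmin : IsLocalMin κ y := by
            refine Filter.Eventually.of_forall fun w => ?_
            show κ y ≤ κ w
            rw [hκ0 y hy]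
            by_cases hw : w ∈ W
            · exact (hκ w hw).1.le
            · rw [hκ0 w hw]
          rw [hmin.fderiv_eq_zero, norm_zero]
          positivity }
  obtain ⟨g, Z, g1, g2, -, g4, g5, g6, g7, g8⟩ := steps C hL L le_rfl t ht
  have hκf : ∀ x ∈ U, 2 * R * κ (f x) ≤ s x := by
    intro x hx
    have h1 := (hκ _ (hk1 x hx).1).2.1.le.trans (min_le_right _ _)
    rw [(hk1 x hx).2] at h1
    calc 2 * R * κ (f x) ≤ 2 * R * (s x / (2 * R)) := by gcongr
      _ = s x := by field_simp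
  have hgf : ∀ x ∈ U, ‖g x - f x‖ ≤ s x := by
    intro x hx
    refine (pi_norm_le_iff_of_nonneg (hs0 x hx).le).2 fun j => ?_
    exact (g4 x hx j (by omega)).trans (hκf x hx)
  have hgD : St.IsDiffeo U W g := hN g g1 g2 fun x hx => (hgf x hx).trans (min_le_right _ _)
  refine ⟨g, hgD, fun x hx => (hgf x hx).trans ((min_le_left _ _).trans (min_le_left _ _)),
    le_trans ?_ htε⟩
  have hmF : AEMeasurable (fun x => ENNReal.ofReal (‖cl (F x)‖ ^ p)) (volume.restrict U) :=
    ((PK.IsSob.aesm hF).norm.aemeasurable.pow_const p).ennreal_ofReal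
  have hpt : ∀ x ∈ U, ∀ j, ‖fderiv ℝ g x (ev j) - cl (F x) (ev j)‖ ≤
      Z x + L * t + L * t * ‖cl (F x)‖ := by
    intro x hx j
    have h0 : 0 ≤ Z x + L * t + L * t * ‖cl (F x)‖ := by have := g6 x; positivity
    refine (pi_norm_le_iff_of_nonneg h0).2 fun i => ?_
    have h1 := g5 x hx i (by omega) (ev j)
    rw [norm_ev] at h1
    refine h1.trans (le_of_eq ?_)
    ring
  unfold err
  refine add_le_add ?_ ?_
  · calc ∫⁻ x in U, ENNReal.ofReal (‖g x - f x‖ ^ p)
        ≤ ∫⁻ _x in U, ENNReal.ofReal (t ^ p) := by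
          refine setLIntegral_mono' hU.measurableSet fun x hx => ?_
          exact ENNReal.ofReal_le_ofReal (Real.rpow_le_rpow (norm_nonneg _)
            ((hgf x hx).trans ((min_le_left _ _).trans (min_le_right _ _))) hp0.le)
      _ = ENNReal.ofReal (t ^ p) * volume U := setLIntegral_const _ _
  · calc ∑ j, ∫⁻ x in U, ENNReal.ofReal (‖fderiv ℝ g x (ev j) - cl (F x) (ev j)‖ ^ p)
        ≤ ∑ _j : Fin 3, ∫⁻ x in U, ENNReal.ofReal (3 ^ p) * (ENNReal.ofReal (Z x ^ p) +
            ENNReal.ofReal ((L * t) ^ p) + ENNReal.ofReal ((L * t) ^ p) *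
              ENNReal.ofReal (‖cl (F x)‖ ^ p)) := by
          refine Finset.sum_le_sum fun j _ => setLIntegral_mono' hU.measurableSet fun x hx => ?_
          have z0 := g6 x
          rw [← ENNReal.ofReal_mul (by positivity), ← ENNReal.ofReal_add (by positivity)
            (by positivity), ← ENNReal.ofReal_add (by positivity) (by positivity),
            ← ENNReal.ofReal_mul (by positivity)]
          apply ENNReal.ofReal_le_ofReal
          refine (Real.rpow_le_rpow (norm_nonneg _) (hpt x hx j) hp0.le).trans ?_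
          refine (H694.rpow_add3_le hp z0 (by positivity) (by positivity)).trans ?_
          rw [Real.mul_rpow (by positivity) (norm_nonneg _)]
      _ = 3 * (ENNReal.ofReal (3 ^ p) * ((∫⁻ x in U, ENNReal.ofReal (Z x ^ p)) +
            ENNReal.ofReal ((L * t) ^ p) * volume U + ENNReal.ofReal ((L * t) ^ p) * EF)) := by
          rw [lintegral_const_mul' _ _ ENNReal.ofReal_ne_top,
            lintegral_add_right' _ (hmF.const_mul _), lintegral_add_right' _ aemeasurable_const,
            lintegral_const_mul' _ _ ENNReal.ofReal_ne_top, setLIntegral_const, ← hEF]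
          simp
      _ ≤ _ := by gcongr

/-- **homeomorphisms of bounded domains with flagged weak derivative** -/
theorem fa_of_flag (hp : 1 ≤ p) (hΩ : St.IsBoundedDomain U) (hΛ : St.IsBoundedDomain W)
    (hf : St.IsHomeo U W f) (hF : St.IsSobolev p U f F)
    (hfl : ∀ᵐ x ∂(volume : Measure V), x ∈ U → Flag r (F x)) :
    _root_.Vale.Agent.P073.H694.FA p U W f F := by
  have hΛc : Wᶜ.Nonempty := by
    rw [nonempty_compl]
    rintro rfl
    exact NormedSpace.unbounded_univ ℝ V (PK.isBounded_of_domain hΛ)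
  obtain ⟨k, ⟨hk1, hk2⟩, hfc, hkc⟩ := id hf
  have hbij : BijOn f U W :=
    ⟨fun x hx => (hk1 x hx).1, fun x hx y hy h => by
      rw [← (hk1 x hx).2, h, (hk1 y hy).2], fun y hy => ⟨k y, (hk2 y hy).1, (hk2 y hy).2⟩⟩
  obtain ⟨δ₀, h1, h2, h3⟩ := Vale.Agent.P073.exists_delta_diffeo hΩ.1 hΛ.1
    hΛ.2.1.isPreconnected hΛc hfc hkc hbij ⟨fun x hx => (hk1 x hx).2, fun y hy => (hk2 y hy).2⟩
  refine fa_flag hp hΩ.1 (PK.isBounded_of_domain hΩ) hΛ.1 hΛc hf hF hfl h1 h2
    fun g hg hgi hgf => ?_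
  obtain ⟨hb, k', hk', hinv⟩ := h3 g hg hgi hgf
  refine ⟨k', ⟨fun x hx => ⟨hb.mapsTo hx, hinv.1 hx⟩, fun y hy => ?_⟩, contDiffOn_pi.1 hg,
    contDiffOn_pi.1 hk'⟩
  obtain ⟨x, hx, rfl⟩ := hb.surjOn hy
  have h4 : k' (g x) = x := hinv.1 hx
  rw [h4]
  exact ⟨hx, rfl⟩

end Vale.Agent.P073.R2.H488
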