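import Vale.Agent.P073.R2.H488.W5

/-!
# P073: directionally monotone blocks above smooth rows: weighted fine approximation
-/

namespace Vale.Agent.P073.R2.H488

open MeasureTheory Set Filter Topology Metric Vale.Agent.P073.St Vale.Agent.P073.AB
open Vale.Agent.P073.SQ (ev)
open Vale.Agent.P073.PK (cl_apply)
open Vale.Agent.P073.R2.H580 (SobLoc WFA)
open scoped ContDiff ENNReal

variable {p : ℝ} {U W Ω Λ : Set V} {f : V → V} {F : V → Mat} {r : Fin 3 → ℕ} {b₀ : ℕ} {c : ℝ}

open Classical in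
/-- the smooth rows do not depend on the coordinates of the other levels -/
theorem ker_eq {T : Fin 3 → V →L[ℝ] ℝ} {P : Fin 3 → Prop}
    (hk : ∀ h : V, (∀ j, P j → T j h = 0) → ∀ j, P j → h j = 0) {i j : Fin 3} (hi : P i)
    (hj : ¬ P j) : T i (ev j) = 0 := by
  let Q : V →ₗ[ℝ] V := LinearMap.pi fun j =>
    if P j then (T j : V →ₗ[ℝ] ℝ) else LinearMap.proj j
  have hQ : ∀ h j, Q h j = if P j then T j h else h j := by
    intro h j
    show (if P j then (T j : V →ₗ[ℝ] ℝ) else LinearMap.proj j) h = _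
    split_ifs <;> rfl
  have hinj : Function.Injective Q := by
    refine (injective_iff_map_eq_zero Q).2 fun h hh => ?_
    have h0 : ∀ j, Q h j = 0 := fun j => by rw [hh]; rfl
    have h1 := hk h fun j hj => by
      have := h0 j
      rwa [hQ, if_pos hj] at this
    funext j
    by_cases hj : P j
    · exact h1 j hj
    · have := h0 j
      rwa [hQ, if_neg hj] at this
  obtain ⟨h, hh⟩ := (LinearMap.injective_iff_surjective.1 hinj) (ev j)
  have h0 : ∀ l, Q h l = ev j l := fun l => by rw [hh]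
  have h1 : ∀ l, P l → T l h = 0 := fun l hl => by
    have h2 := h0 l
    rw [hQ, if_pos hl] at h2
    rw [h2]
    have h3 : l ≠ j := fun e => hj (e ▸ hl)
    simp [ev, h3]
  have h2 := hk h h1
  have h3 : h = ev j := by
    funext l
    by_cases hl : P l
    · rw [h2 l hl]
      have h3 : l ≠ j := fun e => hj (e ▸ hl)
      simp [ev, h3]
    · have := h0 l
      rwa [hQ, if_neg hl] at this
  rw [← h3]
  exact h1 i hi

/-- **weighted fine approximation**, final form -/
theorem wfa_of_dflag (hp : 1 ≤ p) (hΩ : St.IsBoundedDomain Ω) (hΛ : St.IsBoundedDomain Λ)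
    (hf : St.IsHomeo Ω Λ f) (hF : SobLoc p Ω f F)
    (hs : ∀ j, r j < b₀ → ContDiffOn ℝ ∞ (fun x => f x j) Ω)
    (hk : ∀ x ∈ Ω, ∀ h : V, (∀ j, r j < b₀ → fderiv ℝ (fun z => f z j) x h = 0) →
      ∀ j, r j < b₀ → h j = 0)
    (htri : ∀ᵐ x ∂(volume : Measure V), x ∈ Ω → ∀ i j, b₀ ≤ r i → r i < r j → F x i j = 0)
    (hdir : ∀ b, b₀ ≤ b → ∀ h : V, (∀ i, r i ≠ b → h i = 0) → ∃ n : V,
      (∀ i, r i ≠ b → n i = 0) ∧ ‖n‖ ≤ c * ‖h‖ ∧ ‖h‖ ^ 2 ≤ ∑ i, n i * h i ∧
      ∀ᵐ x ∂(volume : Measure V), x ∈ Ω → 0 ≤ ∑ i, n i * cl (F x) h i) :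
    WFA p Ω Λ f F := by
  have hUb := PK.isBounded_of_domain hΩ
  have hlow : ∀ᵐ x ∂(volume : Measure V), ∀ i : Fin 3, r i < b₀ → x ∈ Ω → ∀ v : V,
      cl (F x) v i = fderiv ℝ (fun z => f z i) x v := by
    refine ae_all_iff.2 fun i => ?_
    by_cases hi : r i < b₀
    · filter_upwards [ae_low hp hΩ.1 hUb hF i (hs i hi)] with x hx _ using hx
    · exact ae_of_all _ fun x h => absurd h hi
  have hfl : DFlagFrom Ω F r b₀ (max c 1) :=
    { tri := by
        filter_upwards [htri, hlow] with x hx hx' hxU i j hij hj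
        by_cases hi : b₀ ≤ r i
        · exact hx hxU i j hi hij
        · have hi' : r i < b₀ := not_le.1 hi
          have h1 := hx' i hi' hxU (ev j)
          have h2 : cl (F x) (ev j) i = F x i j := by
            rw [cl_apply]
            simp [ev, Pi.single_apply]
          rw [← h2, h1]
          exact ker_eq (T := fun i => fderiv ℝ (fun z => f z i) x) (P := fun i => r i < b₀)
            (hk x hxU) hi' (not_lt.2 hj)
      dir := by
        intro b hb h hh
        obtain ⟨n, n1, n2, n3, n4⟩ := hdir b hb h hh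
        refine ⟨n, n1, n2.trans (mul_le_mul_of_nonneg_right (le_max_left _ _) (norm_nonneg h)),
          n3, ?_⟩
        filter_upwards [n4] with x hx hxU
        have := hx hxU
        simpa only [cl_apply] using this }
  exact wfa_of_flag hp hΩ hΛ hf hF (le_max_right _ _) hfl hs hk

end Vale.Agent.P073.R2.H488
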