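import Vale.Agent.P073.R2.H580.Coord
import Vale.Agent.P073.R2.H580.Defs3
import Vale.Agent.P073.R2.H669.Chain
import Vale.Agent.P073.R2.H655.GlueW
import Vale.Agent.P073.R2.H488.W6

/-!
# P073: layered maps in smooth coordinates are finely approximable
-/

set_option autoImplicit false

namespace Vale.Agent.P073.R2.H488

open MeasureTheory Set Filter Topology Metric Vale.Agent.P073.St Vale.Agent.P073.AB
open Vale.Agent.P073.H183 (euc_lt locF locf key)
open Vale.Agent.P073.SQ (ev)
open Vale.Agent.P073.PK (cl_apply)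
open Vale.Agent.P073.MM (exists_lv)
open Vale.Agent.P073.R2.H580 (SobLoc WFA Lv lv_open lv_sub sobLoc_lv Layered LayerCoord)
open scoped ContDiff ENNReal Convolution

variable {p : ℝ} {U : Set V} {f : V → V} {F : V → Mat}

/-- The bilinear form. -/
noncomputable def Bf (U : Set V) (F : V → Mat) (n h : V) (x : V) : ℝ :=
  ∑ i, ∑ j, (n i * h j) * U.indicator (fun x => F x i j) x

theorem locB (hp : 1 ≤ p) (hU : IsOpen U) (hF : St.IsSobolev p U f F) (n h : V) :
    LocallyIntegrable (Bf U F n h) volume := by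
  have h1 : Bf U F n h = ∑ i, ∑ j, (n i * h j) • (U.indicator (fun x => F x i j)) := by
    funext x
    simp [Bf, Finset.sum_apply]
  rw [h1]
  apply locallyIntegrable_finsetSum'
  intro i _
  apply locallyIntegrable_finsetSum'
  intro j _
  exact (locF hp hU hF i j).smul _

/-- near each point `n · f` does not decrease in the direction `h` -/
def DirMon (U : Set V) (f : V → V) (n h : V) : Prop :=
  ∀ a ∈ U, ∃ ρ : ℝ, 0 < ρ ∧ ∀ x, ∀ t : ℝ, euc (x - a) < ρ → 0 ≤ t → t < ρ →
    ∑ i, n i * f x i ≤ ∑ i, n i * f (x + t • h) i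

theorem local_nonneg (hp : 1 ≤ p) (hU : IsOpen U) (hfc : ContinuousOn f U)
    (hF : St.IsSobolev p U f F) {n h : V} (hm : DirMon U f n h) (hh : h ≠ 0) {a : V}
    (ha : a ∈ U) :
    ∃ δ : ℝ, 0 < δ ∧ ∀ φ : V → ℝ, ContDiff ℝ ∞ φ → HasCompactSupport φ → (∀ x, 0 ≤ φ x) →
      tsupport φ ⊆ closedBall a δ → 0 ≤ ∫ x, φ x * Bf U F n h x := by
  obtain ⟨r, hr, hmon⟩ := hm a ha
  obtain ⟨δ₀, hδ₀, hδU⟩ := nhds_basis_closedBall.mem_iff.1 (hU.mem_nhds ha)
  have hh0 : 0 < ‖h‖ := norm_pos_iff.2 hh
  set R : ℝ := min δ₀ (min (r / 4) (r * ‖h‖ / 4)) with hR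
  have hR0 : 0 < R := lt_min hδ₀ (lt_min (by positivity) (by positivity))
  have hRU : closedBall a R ⊆ U := (closedBall_subset_closedBall (min_le_left _ _)).trans hδU
  have hR1 : R ≤ r / 4 := (min_le_right _ _).trans (min_le_left _ _)
  have hR2 : R ≤ r * ‖h‖ / 4 := (min_le_right _ _).trans (min_le_right _ _)
  have hRr : ∀ x ∈ closedBall a R, euc (x - a) < r := fun x hx => by
    apply euc_lt hr
    rw [mem_closedBall, dist_eq_norm] at hx
    exact hx.trans hR1
  refine ⟨R / 2, by positivity, fun φ hφ hc h0 hs => ?_⟩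
  set g : V → ℝ := fun x => ∑ i, n i * f x i with hg
  have hgc : ContinuousOn g (closedBall a R) := by
    have h1 : ContinuousOn f (closedBall a R) := hfc.mono hRU
    apply continuousOn_finsetSum
    intro i _
    exact continuousOn_const.mul ((continuous_apply i).comp_continuousOn h1)
  have hgm : ∀ x ∈ closedBall a R, ∀ t : ℝ, 0 < t → x + t • h ∈ closedBall a R →
      g x ≤ g (x + t • h) := by
    intro x hx t ht hx'
    refine hmon x t (hRr _ hx) ht.le ?_
    have h1 : ‖t • h‖ ≤ 2 * R := by
      have h2 : t • h = (x + t • h - a) - (x - a) := by abel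
      rw [mem_closedBall, dist_eq_norm] at hx hx'
      rw [h2]
      exact (norm_sub_le _ _).trans (by linarith)
    rw [norm_smul, Real.norm_of_nonneg ht.le] at h1
    have h2 : t * ‖h‖ ≤ (r / 2) * ‖h‖ := by linarith
    have h3 : t ≤ r / 2 := le_of_mul_le_mul_right h2 hh0
    linarith
  have hkey := key (μ := (volume : Measure V)) hR0 hgc hgm hφ hc h0 hs
  have hsR : tsupport φ ⊆ closedBall a R :=
    hs.trans (closedBall_subset_closedBall (by linarith))
  have htest : IsTest U φ := ⟨hφ.contDiffOn, hc, hsR.trans hRU⟩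
  have hpd : ∀ x j, pd φ x j = fderiv ℝ φ x (Pi.single j 1) := fun x j => PK.pd_eq_fderiv hφ x j
  -- the weak derivative
  have hw : ∀ i j, ∫ x, φ x * U.indicator (fun x => F x i j) x =
      - ∫ x, fderiv ℝ φ x (Pi.single j 1) * U.indicator (fun x => f x i) x := by
    intro i j
    have h1 := hF.2.2 φ htest i j
    simp only [St.int] at h1
    rw [← integral_indicator hU.measurableSet, ← integral_indicator hU.measurableSet] at h1
    have e1 : (U.indicator fun x => φ x * F x i j) =
        fun x => φ x * U.indicator (fun x => F x i j) x := by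
      funext x
      exact indicator_mul_right U φ (fun x => F x i j)
    have e2 : (U.indicator fun x => pd φ x j * f x i) =
        fun x => fderiv ℝ φ x (Pi.single j 1) * U.indicator (fun x => f x i) x := by
      funext x
      rw [← hpd]
      exact indicator_mul_right U (fun x => pd φ x j) (fun x => f x i)
    rw [e1, e2] at h1
    exact h1
  have hi1 : ∀ i j, Integrable (fun x => φ x * U.indicator (fun x => F x i j) x) volume :=
    fun i j => (locF hp hU hF i j).integrable_smul_left_of_hasCompactSupport hφ.continuous hc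
  have hdc : ∀ j : Fin 3, Continuous fun x => fderiv ℝ φ x (Pi.single j 1) := fun j =>
    (hφ.continuous_fderiv (by simp)).clm_apply continuous_const
  have hds : ∀ j : Fin 3, HasCompactSupport fun x => fderiv ℝ φ x (Pi.single j 1) := fun j => by
    have h1 := hc.fderiv (𝕜 := ℝ)
    exact h1.comp_left (g := fun L : V →L[ℝ] ℝ => L (Pi.single j 1)) rfl
  have hi2 : ∀ i j, Integrable
      (fun x => fderiv ℝ φ x (Pi.single j 1) * U.indicator (fun x => f x i) x) volume :=
    fun i j => (locf hp hU hF i).integrable_smul_left_of_hasCompactSupport (hdc j) (hds j)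
  have e1 : ∫ x, φ x * Bf U F n h x =
      ∑ i, ∑ j, (n i * h j) * ∫ x, φ x * U.indicator (fun x => F x i j) x := by
    have h1 : (fun x => φ x * Bf U F n h x) =
        fun x => ∑ i, ∑ j, (n i * h j) * (φ x * U.indicator (fun x => F x i j) x) := by
      funext x
      rw [Bf, Finset.mul_sum]
      apply Finset.sum_congr rfl
      intro i _
      rw [Finset.mul_sum]
      apply Finset.sum_congr rfl
      intro j _
      ring
    rw [h1, integral_finsetSum _ (fun i _ => integrable_finsetSum _ (fun j _ =>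
      (hi1 i j).const_mul _))]
    apply Finset.sum_congr rfl
    intro i _
    rw [integral_finsetSum _ (fun j _ => (hi1 i j).const_mul _)]
    apply Finset.sum_congr rfl
    intro j _
    rw [integral_const_mul]
  have e2 : ∫ x, -(fderiv ℝ φ x h) * (closedBall a R).indicator g x =
      ∑ i, ∑ j, (n i * h j) *
        (- ∫ x, fderiv ℝ φ x (Pi.single j 1) * U.indicator (fun x => f x i) x) := by
    have h1 : (fun x => -(fderiv ℝ φ x h) * (closedBall a R).indicator g x) =
        fun x => ∑ i, ∑ j, (n i * h j) *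
          -(fderiv ℝ φ x (Pi.single j 1) * U.indicator (fun x => f x i) x) := by
      funext x
      have h2 : fderiv ℝ φ x h = ∑ j, h j * fderiv ℝ φ x (Pi.single j 1) := by
        conv_lhs => rw [pi_eq_sum_univ' h]
        rw [map_sum]
        apply Finset.sum_congr rfl
        intro j _
        rw [map_smul, smul_eq_mul]
      by_cases hx : x ∈ tsupport φ
      · have hx1 : x ∈ closedBall a R := hsR hx
        rw [indicator_of_mem hx1, h2, hg]
        simp only [indicator_of_mem (hRU hx1)]
        rw [neg_mul, Finset.sum_mul_sum, Finset.sum_comm, ← Finset.sum_neg_distrib]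
        apply Finset.sum_congr rfl
        intro i _
        rw [← Finset.sum_neg_distrib]
        apply Finset.sum_congr rfl
        intro j _
        ring
      · have h3 : fderiv ℝ φ x = 0 := by
          by_contra hne
          exact hx (support_fderiv_subset ℝ hne)
        simp [h3]
    have hi3 : ∀ i j, Integrable
        (fun x => -(fderiv ℝ φ x (Pi.single j 1) * U.indicator (fun x => f x i) x)) volume :=
      fun i j => (hi2 i j).neg
    rw [h1, integral_finsetSum _ (fun i _ => integrable_finsetSum _ (fun j _ =>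
      (hi3 i j).const_mul _))]
    apply Finset.sum_congr rfl
    intro i _
    rw [integral_finsetSum _ (fun j _ => (hi3 i j).const_mul _)]
    apply Finset.sum_congr rfl
    intro j _
    rw [integral_const_mul, integral_neg]
  rw [e1]
  simp only [hw]
  rw [← e2]
  exact hkey

theorem dir_ae (hp : 1 ≤ p) (hU : IsOpen U) (hfc : ContinuousOn f U)
    (hF : St.IsSobolev p U f F) {n h : V} (hm : DirMon U f n h) :
    ∀ᵐ x ∂(volume : Measure V), x ∈ U → 0 ≤ ∑ i, n i * cl (F x) h i := by
  by_cases hh : h = 0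
  · refine ae_of_all _ fun x _ => ?_
    rw [hh, map_zero]
    simp
  have h1 : ∀ᵐ x ∂(volume : Measure V), x ∈ U → 0 ≤ Bf U F n h x := by
    let φ : ℕ → ContDiffBump (0 : V) := fun k =>
      { rIn := 1 / (2 * ((k : ℝ) + 1))
        rOut := 1 / ((k : ℝ) + 1)
        rIn_pos := by positivity
        rIn_lt_rOut := by
          apply one_div_lt_one_div_of_lt (by positivity)
          have : (0 : ℝ) ≤ k := Nat.cast_nonneg k
          linarith }
    have hφ0 : Tendsto (fun k => (φ k).rOut) atTop (𝓝 0) :=
      tendsto_one_div_add_atTop_nhds_zero_nat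
    have hφK : ∀ᶠ k in atTop, (φ k).rOut ≤ 2 * (φ k).rIn := by
      refine Eventually.of_forall fun k => ?_
      change 1 / ((k : ℝ) + 1) ≤ 2 * (1 / (2 * ((k : ℝ) + 1)))
      have : (0 : ℝ) < (k : ℝ) + 1 := by positivity
      apply le_of_eq
      field_simp
    filter_upwards [ContDiffBump.ae_convolution_tendsto_right_of_locallyIntegrable
      (μ := (volume : Measure V)) hφ0 hφK (locB hp hU hF n h)] with x hx hxU
    obtain ⟨δ, hδ, hloc⟩ := local_nonneg hp hU hfc hF hm hh hxU
    apply ge_of_tendsto hx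
    have h2 : ∀ᶠ k in atTop, (φ k).rOut < δ := hφ0.eventually_lt_const hδ
    filter_upwards [h2] with k hk
    rw [convolution_eq_swap]
    have hsup : tsupport (fun y => (φ k).normed volume (x - y)) ⊆ closedBall x δ := by
      apply closure_minimal _ isClosed_closedBall
      intro y hy
      have h3 : x - y ∈ Function.support ((φ k).normed volume) := hy
      rw [ContDiffBump.support_normed_eq, mem_ball_zero_iff] at h3
      rw [mem_closedBall, dist_comm, dist_eq_norm]
      exact (h3.trans hk).le
    have h3 := hloc (fun y => (φ k).normed volume (x - y))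
      ((φ k).contDiff_normed.comp (contDiff_const.sub contDiff_id))
      (HasCompactSupport.of_support_subset_isCompact (isCompact_closedBall x δ)
        (subset_closure.trans hsup))
      (fun y => (φ k).nonneg_normed _) hsup
    exact h3
  filter_upwards [h1] with x hx hxU
  have h2 : Bf U F n h x = ∑ i, n i * cl (F x) h i := by
    rw [Bf]
    apply Finset.sum_congr rfl
    intro i _
    have h3 : cl (F x) h i = ∑ j, F x i j * h j := by
      simp [cl, Matrix.toLin'_apply, Matrix.mulVec, dotProduct]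
    rw [h3, Finset.mul_sum]
    apply Finset.sum_congr rfl
    intro j _
    rw [indicator_of_mem hxU]
    ring
  rw [← h2]
  exact hx hxU

/-- the sign is local -/
theorem dir_loc (hp : 1 ≤ p) (hU : IsOpen U) (hUb : Bornology.IsBounded U) (hne : Uᶜ.Nonempty)
    (hf : ContinuousOn f U) (hF : SobLoc p U f F) {n h : V} (hm : DirMon U f n h) :
    ∀ᵐ x ∂(volume : Measure V), x ∈ U → 0 ≤ ∑ i, n i * cl (F x) h i := by
  have h1 : ∀ k, ∀ᵐ x ∂(volume : Measure V), x ∈ Lv U k → 0 ≤ ∑ i, n i * cl (F x) h i := fun k =>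
    dir_ae hp (lv_open U k) (hf.mono (lv_sub hU hne k)) (sobLoc_lv hU hUb hne hF k)
      fun a ha => hm a (lv_sub hU hne k ha)
  have h2 : ∀ᵐ x ∂(volume : Measure V), ∀ k, x ∈ Lv U k → 0 ≤ ∑ i, n i * cl (F x) h i := by
    rw [ae_all_iff]
    exact h1
  filter_upwards [h2] with x hx hxU
  have hpos : 0 < infDist x Uᶜ :=
    (hU.isClosed_compl.notMem_iff_infDist_pos hne).1 (by simpa using hxU)
  obtain ⟨N, hN⟩ := exists_lv hpos
  exact hx N hN

theorem le_euc (v : V) : ‖v‖ ≤ euc v := by
  have h0 : 0 ≤ euc v := Real.sqrt_nonneg _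
  refine (pi_norm_le_iff_of_nonneg h0).2 fun i => ?_
  rw [Real.norm_eq_abs, euc]
  apply Real.le_sqrt_of_sq_le
  rw [sq_abs]
  exact Finset.single_le_sum (f := fun i => v i ^ 2) (fun j _ => sq_nonneg (v j))
    (Finset.mem_univ i)

/-- the pointwise properties of the weak derivative of a layered map -/
theorem point_of_layered {r : Fin 3 → ℕ} {b₀ : ℕ} (hp : 1 ≤ p) (hU : St.IsBoundedDomain U)
    (hf : ContinuousOn f U) (hF : SobLoc p U f F) (h : Layered r b₀ U f) :
    (∀ᵐ x ∂(volume : Measure V), x ∈ U → ∀ i j, b₀ ≤ r i → r i < r j → F x i j = 0) ∧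
    ∃ c : ℝ, ∀ b, b₀ ≤ b → ∀ h : V, (∀ i, r i ≠ b → h i = 0) → ∃ n : V,
      (∀ i, r i ≠ b → n i = 0) ∧ ‖n‖ ≤ c * ‖h‖ ∧ ‖h‖ ^ 2 ≤ ∑ i, n i * h i ∧
      ∀ᵐ x ∂(volume : Measure V), x ∈ U → 0 ≤ ∑ i, n i * cl (F x) h i := by
  obtain ⟨-, -, h3, c, h4⟩ := h
  have hUb := PK.isBounded_of_domain hU
  have hne : Uᶜ.Nonempty := by
    rw [nonempty_compl]
    rintro rfl
    exact NormedSpace.unbounded_univ ℝ V hUb
  refine ⟨?_, 2 * max c 0, fun b hb h hh => ?_⟩
  · -- both signs
    have h5 : ∀ i j : Fin 3, b₀ ≤ r i → r i < r j → ∀ s : ℝ,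
        ∀ᵐ x ∂(volume : Measure V), x ∈ U → 0 ≤ s * F x i j := by
      intro i j hi hij s
      have hm : DirMon U f (s • ev i) (ev j) := by
        intro a ha
        obtain ⟨ρ, hρ, hρ'⟩ := h3 i hi a ha
        refine ⟨ρ / 8, by positivity, fun x t hx ht ht' => ?_⟩
        have e1 : ∀ y : V, ∑ l, (s • ev i : V) l * y l = s * y i := by
          intro y
          rw [Finset.sum_eq_single i]
          · simp [ev]
          · intro l _ hl
            simp [ev, hl]
          · simp
        rw [e1, e1]
        have hx1 : ‖x - a‖ < ρ / 8 := (le_euc _).trans_lt hx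
        have e2 : f x i = f (x + t • ev j) i := by
          refine hρ' x (x + t • ev j) (by linarith) ?_ fun l hl => ?_
          · apply euc_lt hρ
            have h6 : x + t • ev j - a = (x - a) + t • ev j := by abel
            have h7 : ‖(ev j : V)‖ = 1 := Vale.Agent.P073.R2.H655.nev j
            rw [h6]
            refine (norm_add_le _ _).trans ?_
            rw [norm_smul, Real.norm_of_nonneg ht, h7]
            linarith
          · have hlj : l ≠ j := by
              rintro rfl
              omega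
            simp [ev, hlj]
        rw [e2]
      filter_upwards [dir_loc hp hU.1 hUb hne hf hF hm] with x hx hxU
      have h6 := hx hxU
      have e1 : ∑ l, (s • ev i : V) l * cl (F x) (ev j) l = s * F x i j := by
        rw [Finset.sum_eq_single i]
        · rw [cl_apply]
          simp [ev, Pi.single_apply]
        · intro l _ hl
          simp [ev, hl]
        · simp
      rwa [e1] at h6
    have h6 : ∀ i j : Fin 3, ∀ᵐ x ∂(volume : Measure V), x ∈ U → b₀ ≤ r i → r i < r j →
        F x i j = 0 := by
      intro i j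
      by_cases hi : b₀ ≤ r i
      · by_cases hij : r i < r j
        · filter_upwards [h5 i j hi hij 1, h5 i j hi hij (-1)] with x hx hx' hxU _ _
          have := hx hxU
          have := hx' hxU
          linarith
        · exact ae_of_all _ fun x _ _ h => absurd h hij
      · exact ae_of_all _ fun x _ h => absurd h hi
    have h7 : ∀ᵐ x ∂(volume : Measure V), ∀ i j : Fin 3, x ∈ U → b₀ ≤ r i → r i < r j →
        F x i j = 0 := by
      rw [ae_all_iff]
      intro i
      rw [ae_all_iff]
      exact h6 i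
    filter_upwards [h7] with x hx hxU i j using hx i j hxU
  · obtain ⟨n, n1, n2, n3, n4⟩ := h4 b hb h hh
    refine ⟨n, n1, ?_, ?_, dir_loc hp hU.1 hUb hne hf hF n4⟩
    · have e1 := Vale.Agent.P073.AB.euc_le_norm h
      have e2 : 0 ≤ euc h := Real.sqrt_nonneg _
      calc ‖n‖ ≤ euc n := le_euc n
        _ ≤ c * euc h := n2
        _ ≤ max c 0 * euc h := mul_le_mul_of_nonneg_right (le_max_left _ _) e2
        _ ≤ max c 0 * (2 * ‖h‖) := mul_le_mul_of_nonneg_left e1 (le_max_right _ _)
        _ = 2 * max c 0 * ‖h‖ := by ring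
    · exact (pow_le_pow_left₀ (norm_nonneg h) (le_euc h) 2).trans n3

/-- **layered homeomorphisms in smooth coordinates are finely approximable** -/
theorem fa_of_layerCoord {Ω Λ : Set V} (hp : 1 ≤ p) (hΩ : St.IsBoundedDomain Ω)
    (hΛ : St.IsBoundedDomain Λ) (hf : St.IsHomeo Ω Λ f) (hF : St.IsSobolev p Ω f F)
    (h : LayerCoord Ω Λ f) : _root_.Vale.Agent.P073.H694.FA p Ω Λ f F := by
  obtain ⟨r, b₀, U', W', a, b, hU', hW', ha, hb, hl⟩ := h
  have hf' : St.IsHomeo U' W' (fun x => b (f (a x))) :=
    Vale.Agent.P073.R2.H580.homeo_comp (g := fun y => b (f y))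
      (Vale.Agent.P073.R2.H580.diffeo_homeo ha)
      (Vale.Agent.P073.R2.H580.homeo_comp (f := f) (g := b) hf
        (Vale.Agent.P073.R2.H580.diffeo_homeo hb))
  have hF' := Vale.Agent.P073.R2.H669.chain p Ω Λ U' W' f F a b hp hΩ hΛ.1 hU'.1 hW'.1 hf hF ha hb
  have hc' : ContinuousOn (fun x => b (f (a x))) U' := by
    obtain ⟨k, -, hc, -⟩ := hf'
    exact hc
  obtain ⟨htri, c, hdir⟩ := point_of_layered hp hU' hc' hF' hl
  exact Vale.Agent.P073.R2.H655.specGlue p Ω Λ U' W' f F a b hp hΩ hΛ hU'.1 hW'.1 hf hF ha hb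
    (wfa_of_dflag hp hU' hW' hf' hF' hl.1 hl.2.1 htri hdir)

end Vale.Agent.P073.R2.H488
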