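import Vale.Agent.P073.R2.H488.SmoothL

/-!
# P073: maps whose weak derivative is block triangular with positive semidefinite blocks: one step
-/

namespace Vale.Agent.P073.R2.H488

open MeasureTheory Set Filter Topology Metric Vale.Agent.P073.St Vale.Agent.P073.AB
open Vale.Agent.P073.SQ (ev)
open Vale.Agent.P073.PK (cl_apply)
open Vale.Agent.P073.MM
open scoped ContDiff ENNReal

/-- block lower triangular (the blocks are the level sets of `r`) with positive semidefinite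
diagonal blocks -/
def Flag (r : Fin 3 → ℕ) (M : Mat) : Prop :=
  (∀ i j, r i < r j → M i j = 0) ∧
    ∀ b : ℕ, ∀ h : V, (∀ i, r i ≠ b → h i = 0) → 0 ≤ ∑ i, h i * ∑ j, M i j * h j

theorem norm_ev (j : Fin 3) : ‖ev j‖ = 1 := by unfold ev; rw [Pi.norm_single]; simp

theorem expand (L : V →L[ℝ] V) (h : V) (j : Fin 3) : L h j = ∑ i, h i * L (ev i) j := by
  have h1 : h = ∑ i, h i • ev i := by
    funext k
    simp [ev, Finset.sum_apply, Pi.single_apply]
  conv_lhs => rw [h1]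
  rw [map_sum, Finset.sum_apply]
  refine Finset.sum_congr rfl fun i _ => ?_
  rw [map_smul, Pi.smul_apply, smul_eq_mul]

/-- the entry functional -/
noncomputable def ent (i j : Fin 3) : (V →L[ℝ] V) →L[ℝ] ℝ :=
  (ContinuousLinearMap.proj (R := ℝ) (φ := fun _ : Fin 3 => ℝ) i).comp
    (ContinuousLinearMap.apply ℝ V (ev j))

theorem ent_apply (i j : Fin 3) (A : V →L[ℝ] V) : ent i j A = A (ev j) i := rfl

theorem ent_norm (i j : Fin 3) : ‖ent i j‖ ≤ 1 := by
  refine ContinuousLinearMap.opNorm_le_bound _ zero_le_one fun A => ?_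
  rw [ent_apply, one_mul]
  refine (norm_le_pi_norm (A (ev j)) i).trans ?_
  have := A.le_opNorm (ev j)
  rwa [norm_ev, mul_one] at this

/-- the quadratic functional -/
noncomputable def qf (h : V) : (V →L[ℝ] V) →L[ℝ] ℝ :=
  ∑ i, h i • (ContinuousLinearMap.proj (R := ℝ) (φ := fun _ : Fin 3 => ℝ) i).comp
    (ContinuousLinearMap.apply ℝ V h)

theorem qf_apply (h : V) (A : V →L[ℝ] V) : qf h A = ∑ i, h i * A h i := by
  unfold qf
  rw [ContinuousLinearMap.sum_apply]
  rfl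

theorem qf_norm (h : V) : ‖qf h‖ ≤ 3 * ‖h‖ ^ 2 := by
  refine ContinuousLinearMap.opNorm_le_bound _ (by positivity) fun A => ?_
  rw [qf_apply, Real.norm_eq_abs]
  refine (quad_bound A h).trans (le_of_eq ?_)
  ring

variable {p : ℝ} {U W : Set V} {f : V → V} {F : V → Mat} {r : Fin 3 → ℕ}

/-- smoothing a map with flagged weak derivative -/
theorem smoothF {e : V → ℝ} {ε : ℝ}
    (hp : 1 ≤ p) (hU : IsOpen U) (hUb : Bornology.IsBounded U) (hf : ContinuousOn f U)
    (hF : St.IsSobolev p U f F) (hfl : ∀ᵐ x ∂(volume : Measure V), x ∈ U → Flag r (F x))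
    (he : ContinuousOn e U) (he0 : ∀ x ∈ U, 0 < e x) (hε : 0 < ε) :
    ∃ g : V → V, ContDiffOn ℝ ∞ g U ∧ (∀ x ∈ U, ‖g x - f x‖ ≤ e x) ∧
      ∫⁻ x in U, ENNReal.ofReal (‖fderiv ℝ g x - cl (F x)‖ ^ p) ≤ ENNReal.ofReal ε ∧
      (∀ x ∈ U, ∀ i j, r i < r j → |fderiv ℝ g x (ev j) i| ≤ e x) ∧
      ∀ x ∈ U, ∀ (b : ℕ) (h : V), (∀ i, r i ≠ b → h i = 0) →
        -(3 * e x * ‖h‖ ^ 2) ≤ ∑ i, h i * fderiv ℝ g x h i := by
  obtain ⟨g, g1, g2, g3, g4⟩ := smoothL hp hU hUb hf hF he he0 hε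
  refine ⟨g, g1, g2, g3, fun x hx i j hij => ?_, fun x hx b h hb => ?_⟩
  · have e1 : ∀ y, cl (F y) (ev j) i = F y i j := by
      intro y
      rw [cl_apply]
      simp [ev, Pi.single_apply]
    have hz : ∀ᵐ y ∂(volume : Measure V), y ∈ U → F y i j = 0 := by
      filter_upwards [hfl] with y hy hyU using (hy hyU).1 i j hij
    have p1 : Pos U F (ent i j) := by
      filter_upwards [hz] with y hy hyU
      rw [ent_apply, e1, hy hyU]
    have p2 : Pos U F (-ent i j) := by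
      filter_upwards [hz] with y hy hyU
      rw [ContinuousLinearMap.neg_apply, ent_apply, e1, hy hyU, neg_zero]
    have q1 := g4 _ p1 x hx
    have q2 := g4 _ p2 x hx
    have hn : ‖-ent i j‖ ≤ 1 := by
      refine ContinuousLinearMap.opNorm_le_bound _ zero_le_one fun A => ?_
      rw [ContinuousLinearMap.neg_apply, norm_neg]
      exact (ent i j).le_of_opNorm_le (ent_norm i j) A
    rw [ContinuousLinearMap.neg_apply] at q2
    rw [ent_apply] at q1 q2
    have h3 := ent_norm i j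
    have h5 : e x * ‖-ent i j‖ ≤ e x * 1 := mul_le_mul_of_nonneg_left hn (he0 x hx).le
    have h4 : e x * ‖ent i j‖ ≤ e x * 1 := mul_le_mul_of_nonneg_left h3 (he0 x hx).le
    rw [abs_le]
    constructor <;> linarith
  · have p1 : Pos U F (qf h) := by
      filter_upwards [hfl] with y hy hyU
      rw [qf_apply]
      have := (hy hyU).2 b h hb
      simpa only [cl_apply] using this
    have q1 := g4 _ p1 x hx
    rw [qf_apply] at q1
    have h4 : e x * ‖qf h‖ ≤ e x * (3 * ‖h‖ ^ 2) :=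
      mul_le_mul_of_nonneg_left (qf_norm h) (he0 x hx).le
    linarith

/-- the data of the steps -/
structure Ctx (p : ℝ) (U W : Set V) (f : V → V) (F : V → Mat) (r : Fin 3 → ℕ) (κ : V → ℝ)
    (R t : ℝ) : Prop where
  hp : 1 ≤ p
  hU : IsOpen U
  hUb : Bornology.IsBounded U
  hfc : ContinuousOn f U
  hfW : ∀ x ∈ U, f x ∈ W
  hF : St.IsSobolev p U f F
  hfl : ∀ᵐ x ∂(volume : Measure V), x ∈ U → Flag r (F x)
  hR : 1 ≤ R
  hUR : ∀ x ∈ U, ‖x‖ ≤ R
  ht0 : 0 < t
  ht1 : t ≤ 1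
  hκs : ContDiff ℝ ∞ κ
  hκ0 : ∀ y ∈ W, 0 < κ y
  hκt : ∀ y, κ y ≤ t
  hκd : ∀ y, ‖fderiv ℝ κ y‖ ≤ t / (24 * R)

theorem Ctx.lip {κ : V → ℝ} {R t : ℝ} (C : Ctx p U W f F r κ R t) (x y : V) :
    |κ x - κ y| ≤ t / (24 * R) * ‖x - y‖ := by
  have h := Convex.norm_image_sub_le_of_norm_fderiv_le (𝕜 := ℝ) (f := κ) (s := univ)
    (fun z _ => (C.hκs.differentiable (by simp)) z) (fun z _ => C.hκd z) convex_univ
    (mem_univ y) (mem_univ x)
  simpa using h

/-- a continuous bound of the inverse -/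
theorem inv_bound {N : V → V} (hU : IsOpen U) (hN : ContDiffOn ℝ ∞ N U)
    (hNi : ∀ x ∈ U, ∀ v, fderiv ℝ N x v = 0 → v = 0) :
    ∃ m : V → ℝ, ContinuousOn m U ∧ (∀ x, 0 ≤ m x) ∧
      ∀ x ∈ U, ∀ v, ‖v‖ ≤ m x * ‖fderiv ℝ N x v‖ := by
  have hu : ∀ x ∈ U, IsUnit (fderiv ℝ N x) := by
    intro x hx
    rw [ContinuousLinearMap.isUnit_iff_bijective]
    have hi : Function.Injective (fderiv ℝ N x) :=
      (injective_iff_map_eq_zero (fderiv ℝ N x)).2 (hNi x hx)
    exact ⟨hi, (LinearMap.injective_iff_surjective (f := (fderiv ℝ N x : V →ₗ[ℝ] V))).1 hi⟩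
  refine ⟨fun x => ‖Ring.inverse (fderiv ℝ N x)‖, ?_, fun x => norm_nonneg _, fun x hx v => ?_⟩
  · refine ContinuousOn.norm fun x hx => ?_
    have h1 : ContinuousOn (fderiv ℝ N) U := hN.continuousOn_fderiv_of_isOpen hU (by simp)
    obtain ⟨w, hw⟩ := hu x hx
    have h2 : ContinuousAt Ring.inverse (fderiv ℝ N x) := by
      rw [← hw]
      exact NormedRing.inverse_continuousAt w
    exact ContinuousAt.comp_continuousWithinAt h2 (h1 x hx)
  · have h1 := Ring.inverse_mul_cancel _ (hu x hx)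
    have h2 : v = Ring.inverse (fderiv ℝ N x) (fderiv ℝ N x v) := by
      have := congrArg (fun L : V →L[ℝ] V => L v) h1
      simpa using this.symm
    conv_lhs => rw [h2]
    exact ContinuousLinearMap.le_opNorm _ _

end Vale.Agent.P073.R2.H488
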