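import Vale.Agent.P073.R2.H488.Step2

/-!
# P073: maps with flagged weak derivative: one step
-/

namespace Vale.Agent.P073.R2.H488

open MeasureTheory Set Filter Topology Metric Vale.Agent.P073.St Vale.Agent.P073.AB
open Vale.Agent.P073.SQ (ev)
open Vale.Agent.P073.PK (cl_apply)
open Vale.Agent.P073.MM
open scoped ContDiff ENNReal

variable {p : ℝ} {U W : Set V} {f : V → V} {F : V → Mat} {r : Fin 3 → ℕ} {κ : V → ℝ} {R t : ℝ}

/-- the mixed map -/
noncomputable def mix (r : Fin 3 → ℕ) (b : ℕ) (g N : V → V) (x : V) : V := fun j =>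
  if r j ≤ b then g x j else N x j

/-- the new map -/
noncomputable def nw (r : Fin 3 → ℕ) (κ : V → ℝ) (b : ℕ) (g N : V → V) (x : V) : V := fun j =>
  if r j = b then g x j + κ (mix r b g N x) * x j else N x j

section

variable {g N : V → V} {b : ℕ}

theorem mix_smooth (hg : ContDiffOn ℝ ∞ g U) (hN : ContDiffOn ℝ ∞ N U) :
    ContDiffOn ℝ ∞ (mix r b g N) U := by
  rw [contDiffOn_pi]
  intro j
  unfold mix
  by_cases hj : r j ≤ b
  · simp only [hj, if_true]
    exact contDiffOn_pi.1 hg j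
  · simp only [hj, if_false]
    exact contDiffOn_pi.1 hN j

theorem nw_smooth (hκ : ContDiff ℝ ∞ κ) (hg : ContDiffOn ℝ ∞ g U) (hN : ContDiffOn ℝ ∞ N U) :
    ContDiffOn ℝ ∞ (nw r κ b g N) U := by
  rw [contDiffOn_pi]
  intro j
  unfold nw
  by_cases hj : r j = b
  · simp only [hj, if_true]
    refine (contDiffOn_pi.1 hg j).add (ContDiffOn.mul (hκ.comp_contDiffOn (mix_smooth hg hN)) ?_)
    exact (contDiff_apply ℝ ℝ j).contDiffOn
  · simp only [hj, if_false]
    exact contDiffOn_pi.1 hN j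

theorem fd_comp {M : V → V} (hU : IsOpen U) (hM : ContDiffOn ℝ ∞ M U) {x : V} (hx : x ∈ U)
    (j : Fin 3) : HasFDerivAt (fun y => M y j)
      ((ContinuousLinearMap.proj (R := ℝ) (φ := fun _ : Fin 3 => ℝ) j).comp (fderiv ℝ M x)) x := by
  have h1 : HasFDerivAt M (fderiv ℝ M x) x :=
    ((hM.contDiffAt (hU.mem_nhds hx)).differentiableAt (by simp)).hasFDerivAt
  exact (hasFDerivAt_pi'.1 h1) j

theorem mix_fd (hU : IsOpen U) (hg : ContDiffOn ℝ ∞ g U) (hN : ContDiffOn ℝ ∞ N U) {x : V}
    (hx : x ∈ U) (v : V) (j : Fin 3) : fderiv ℝ (mix r b g N) x v j =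
      if r j ≤ b then fderiv ℝ g x v j else fderiv ℝ N x v j := by
  have h1 := fd_comp hU (mix_smooth (r := r) (b := b) hg hN) hx j
  by_cases hj : r j ≤ b
  · rw [if_pos hj]
    have e1 : (fun y => mix r b g N y j) = fun y => g y j := by
      funext y
      simp [mix, hj]
    rw [e1] at h1
    exact congrArg (fun L : V →L[ℝ] ℝ => L v) (h1.unique (fd_comp hU hg hx j))
  · rw [if_neg hj]
    have e1 : (fun y => mix r b g N y j) = fun y => N y j := by
      funext y
      simp [mix, hj]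
    rw [e1] at h1
    exact congrArg (fun L : V →L[ℝ] ℝ => L v) (h1.unique (fd_comp hU hN hx j))

theorem nw_fd (hU : IsOpen U) (hκ : ContDiff ℝ ∞ κ) (hg : ContDiffOn ℝ ∞ g U)
    (hN : ContDiffOn ℝ ∞ N U) {x : V} (hx : x ∈ U) (v : V) (j : Fin 3) :
    fderiv ℝ (nw r κ b g N) x v j =
      if r j = b then fderiv ℝ g x v j + (κ (mix r b g N x) * v j +
        fderiv ℝ κ (mix r b g N x) (fderiv ℝ (mix r b g N) x v) * x j)
      else fderiv ℝ N x v j := by
  have h1 := fd_comp hU (nw_smooth (r := r) (b := b) hκ hg hN) hx j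
  by_cases hj : r j = b
  · rw [if_pos hj]
    have e1 : (fun y => nw r κ b g N y j) = fun y => g y j + κ (mix r b g N y) * y j := by
      funext y
      simp [nw, hj]
    rw [e1] at h1
    have hm : HasFDerivAt (mix r b g N) (fderiv ℝ (mix r b g N) x) x :=
      (((mix_smooth hg hN).contDiffAt (hU.mem_nhds hx)).differentiableAt (by simp)).hasFDerivAt
    have h2 : HasFDerivAt (fun y => κ (mix r b g N y))
        ((fderiv ℝ κ (mix r b g N x)).comp (fderiv ℝ (mix r b g N) x)) x :=
      ((hκ.differentiable (by simp)) _).hasFDerivAt.comp x hm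
    have h3 : HasFDerivAt (fun y : V => y j)
        (ContinuousLinearMap.proj (R := ℝ) (φ := fun _ : Fin 3 => ℝ) j) x :=
      (ContinuousLinearMap.proj (R := ℝ) (φ := fun _ : Fin 3 => ℝ) j).hasFDerivAt
    have h4 := (fd_comp hU hg hx j).add (h2.mul h3)
    have h5 := congrArg (fun L : V →L[ℝ] ℝ => L v) (h1.unique h4)
    refine Eq.trans h5 ?_
    show fderiv ℝ g x v j + (κ (mix r b g N x) * v j +
      x j * fderiv ℝ κ (mix r b g N x) (fderiv ℝ (mix r b g N) x v)) = _
    ring
  · rw [if_neg hj]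
    have e1 : (fun y => nw r κ b g N y j) = fun y => N y j := by
      funext y
      simp [nw, hj]
    rw [e1] at h1
    exact congrArg (fun L : V →L[ℝ] ℝ => L v) (h1.unique (fd_comp hU hN hx j))

end

/-- **one step** -/
theorem step (C : Ctx p U W f F r κ R t) (b : ℕ) {N : V → V} {B : V → ℝ}
    (hN : ContDiffOn ℝ ∞ N U) (hNi : ∀ x ∈ U, ∀ v, fderiv ℝ N x v = 0 → v = 0)
    (hNx : ∀ x ∈ U, ∀ j, r j ≤ b → N x j = x j)
    (hNf : ∀ x ∈ U, ∀ j, b < r j → |N x j - f x j| ≤ 2 * R * κ (f x))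
    (hB0 : ∀ x ∈ U, 0 ≤ B x)
    (hNB : ∀ x ∈ U, ∀ j, b < r j → ∀ v, |fderiv ℝ N x v j - cl (F x) v j| ≤ B x * ‖v‖)
    {ε : ℝ} (hε : 0 < ε) :
    ∃ (M : V → V) (X : V → ℝ), ContDiffOn ℝ ∞ M U ∧
      (∀ x ∈ U, ∀ v, fderiv ℝ M x v = 0 → v = 0) ∧
      (∀ x ∈ U, ∀ j, r j < b → M x j = x j) ∧
      (∀ x ∈ U, ∀ j, b ≤ r j → |M x j - f x j| ≤ 2 * R * κ (f x)) ∧
      (∀ x ∈ U, ∀ j, b ≤ r j → ∀ v, |fderiv ℝ M x v j - cl (F x) v j| ≤
        (2 * X x + t * (1 + ‖cl (F x)‖) + B x) * ‖v‖) ∧
      (∀ x, 0 ≤ X x) ∧ AEMeasurable X (volume.restrict U) ∧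
      ∫⁻ x in U, ENNReal.ofReal (X x ^ p) ≤ ENNReal.ofReal ε := by
  have hR0 : 0 < R := by linarith [C.hR]
  obtain ⟨m, hmc, hm0, hm⟩ := inv_bound C.hU hN hNi
  have hκf : ∀ x ∈ U, 0 < κ (f x) := fun x hx => C.hκ0 _ (C.hfW x hx)
  set e : V → ℝ := fun x => κ (f x) / (1000 * (1 + m x)) with he
  have hec : ContinuousOn e U := by
    refine ContinuousOn.div (C.hκs.continuous.comp_continuousOn C.hfc)
      (continuousOn_const.mul (continuousOn_const.add hmc)) fun x _ => ?_
    have := hm0 x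
    positivity
  have he0 : ∀ x ∈ U, 0 < e x := fun x hx => by
    have := hm0 x
    have := hκf x hx
    show 0 < κ (f x) / (1000 * (1 + m x))
    positivity
  have hem : ∀ x, e x * (1 + m x) = κ (f x) / 1000 := by
    intro x
    have h1 : 0 < 1 + m x := by linarith [hm0 x]
    show κ (f x) / (1000 * (1 + m x)) * (1 + m x) = _
    field_simp
  have hel : ∀ x ∈ U, e x ≤ κ (f x) / 1000 := by
    intro x hx
    have h1 := hem x
    have h2 := mul_nonneg (he0 x hx).le (hm0 x)
    linarith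
  obtain ⟨g, g1, g2, g3, g4, g5⟩ := smoothF C.hp C.hU C.hUb C.hfc C.hF C.hfl hec he0 hε
  -- the mixed map
  have hG : ∀ x ∈ U, ‖mix r b g N x - f x‖ ≤ 2 * R * κ (f x) := by
    intro x hx
    have hk := hκf x hx
    refine (pi_norm_le_iff_of_nonneg (by positivity)).2 fun j => ?_
    show |mix r b g N x j - f x j| ≤ _
    by_cases hj : r j ≤ b
    · simp only [mix, hj, if_true]
      have h1 : |g x j - f x j| ≤ e x := (norm_le_pi_norm (g x - f x) j).trans (g2 x hx)
      have h2 := hel x hx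
      have h3 : κ (f x) ≤ R * κ (f x) := by nlinarith [C.hR]
      linarith
    · simp only [mix, hj, if_false]
      exact hNf x hx j (by omega)
  have hK : ∀ x ∈ U, |κ (mix r b g N x) - κ (f x)| ≤ κ (f x) / 12 := by
    intro x hx
    have hk := hκf x hx
    refine (C.lip _ _).trans ?_
    calc t / (24 * R) * ‖mix r b g N x - f x‖ ≤ 1 / (24 * R) * (2 * R * κ (f x)) := by
          have := hG x hx
          have := C.ht0
          gcongr
          exact C.ht1
      _ = κ (f x) / 12 := by field_simp; ring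
  have hKp : ∀ x ∈ U, 0 < κ (mix r b g N x) := by
    intro x hx
    have := (abs_le.1 (hK x hx)).1
    linarith [hκf x hx]
  have hdκ : ∀ y, ‖fderiv ℝ κ y‖ ≤ 1 / (24 * R) := fun y => (C.hκd y).trans (by
    gcongr
    exact C.ht1)
  have hdx : ∀ x ∈ U, ∀ j, |x j| ≤ R := fun x hx j => (norm_le_pi_norm x j).trans (C.hUR x hx)
  refine ⟨nw r κ b g N, fun x => ‖fderiv ℝ g x - cl (F x)‖, nw_smooth C.hκs g1 hN,
    fun x hx h hh => ?_, fun x hx j hj => ?_, fun x hx j hj => ?_, fun x hx j hj v => ?_,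
    fun x => norm_nonneg _, ?_, g3⟩
  · -- nonsingular
    have hc : ∀ j, fderiv ℝ (nw r κ b g N) x h j = 0 := fun j => by rw [hh]; rfl
    have hfd := fun j => (nw_fd (r := r) (b := b) C.hU C.hκs g1 hN hx h j).symm.trans (hc j)
    have hmf := fun j => mix_fd (r := r) (b := b) C.hU g1 hN hx h j
    have hNd : ∀ j, r j ≤ b → fderiv ℝ N x h j = h j := by
      intro j hj
      have e1 : (fun y => N y j) =ᶠ[𝓝 x] fun y => y j := by
        filter_upwards [C.hU.mem_nhds hx] with y hy using hNx y hy j hj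
      have h1 := (fd_comp C.hU hN hx j).congr_of_eventuallyEq e1.symm
      have h3 : HasFDerivAt (fun y : V => y j)
          (ContinuousLinearMap.proj (R := ℝ) (φ := fun _ : Fin 3 => ℝ) j) x :=
        (ContinuousLinearMap.proj (R := ℝ) (φ := fun _ : Fin 3 => ℝ) j).hasFDerivAt
      exact congrArg (fun L : V →L[ℝ] ℝ => L h) (h1.unique h3)
    have hk := hκf x hx
    refine alg (r := r) (b := b) (A := fderiv ℝ N x) (D := fderiv ℝ g x) (h := h) (x := x)
      (v := fderiv ℝ (mix r b g N) x h) (K := κ (mix r b g N x)) (R := R) (e := e x) (m := m x)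
      (q := fderiv ℝ κ (mix r b g N x) (fderiv ℝ (mix r b g N) x h)) C.hR (C.hUR x hx) (hKp x hx)
      (he0 x hx) (hm0 x) (hNi x hx) (hm x hx h) (fun j hj => ?_) (fun j hj => (hNd j hj).symm)
      (fun j hj => ?_) (fun j hj => ?_) ?_ (fun j hj => ?_) (g4 x hx) (g5 x hx b) ?_
    · have := hfd j
      rwa [if_neg hj] at this
    · rw [hmf j, if_pos hj]
    · rw [hmf j, if_neg (by omega)]
    · have h1 := (fderiv ℝ κ (mix r b g N x)).le_opNorm (fderiv ℝ (mix r b g N) x h)
      rw [Real.norm_eq_abs] at h1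
      refine h1.trans ?_
      calc ‖fderiv ℝ κ (mix r b g N x)‖ * ‖fderiv ℝ (mix r b g N) x h‖
          ≤ 1 / (24 * R) * ‖fderiv ℝ (mix r b g N) x h‖ := by
            gcongr
            exact hdκ _
        _ = _ := by ring
    · have := hfd j
      rwa [if_pos hj] at this
    · rw [hem x]
      have := (abs_le.1 (hK x hx)).1
      linarith
  · show nw r κ b g N x j = x j
    unfold nw
    rw [if_neg hj.ne]
    exact hNx x hx j hj.le
  · unfold nw
    by_cases hj' : r j = b
    · simp only [hj', if_true]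
      have hk := hκf x hx
      have h1 : |g x j - f x j| ≤ e x := (norm_le_pi_norm (g x - f x) j).trans (g2 x hx)
      have h2 := hel x hx
      have h3 : κ (f x) ≤ R * κ (f x) := by nlinarith [C.hR]
      have h4 : |κ (mix r b g N x) * x j| ≤ (13 / 12 * κ (f x)) * R := by
        rw [abs_mul, abs_of_pos (hKp x hx)]
        have := (abs_le.1 (hK x hx)).2
        exact mul_le_mul (by linarith) (hdx x hx j) (abs_nonneg _) (by positivity)
      rw [abs_le] at h1 h4 ⊢
      constructor <;> linarith [h1.1, h1.2, h4.1, h4.2]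
    · simp only [hj', if_false]
      exact hNf x hx j (by omega)
  · -- the derivative
    set X : ℝ := ‖fderiv ℝ g x - cl (F x)‖ with hX
    set Y : ℝ := ‖cl (F x)‖ with hY
    have hX0 : 0 ≤ X := norm_nonneg _
    have hY0 : 0 ≤ Y := norm_nonneg _
    have hb0 := hB0 x hx
    have ht0 := C.ht0
    have hgj : ∀ j, |fderiv ℝ g x v j - cl (F x) v j| ≤ X * ‖v‖ := by
      intro j
      have h1 := (fderiv ℝ g x - cl (F x)).le_opNorm v
      exact (norm_le_pi_norm ((fderiv ℝ g x - cl (F x)) v) j).trans h1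
    by_cases hj' : r j = b
    · rw [nw_fd C.hU C.hκs g1 hN hx v j, if_pos hj']
      have h1 : ‖fderiv ℝ (mix r b g N) x v‖ ≤ (Y + X + B x) * ‖v‖ := by
        refine (pi_norm_le_iff_of_nonneg (by positivity)).2 fun i => ?_
        rw [Real.norm_eq_abs, mix_fd C.hU g1 hN hx v i]
        have hFi : |cl (F x) v i| ≤ Y * ‖v‖ :=
          (norm_le_pi_norm (cl (F x) v) i).trans ((cl (F x)).le_opNorm v)
        have e1 : 0 ≤ X * ‖v‖ := by positivity
        have e2 : 0 ≤ B x * ‖v‖ := by positivity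
        by_cases hi : r i ≤ b
        · rw [if_pos hi]
          have := hgj i
          rw [abs_le] at this hFi ⊢
          constructor <;> nlinarith [this.1, this.2, hFi.1, hFi.2]
        · rw [if_neg hi]
          have := hNB x hx i (by omega) v
          rw [abs_le] at this hFi ⊢
          constructor <;> nlinarith [this.1, this.2, hFi.1, hFi.2]
      have h2 : |fderiv ℝ κ (mix r b g N x) (fderiv ℝ (mix r b g N) x v) * x j| ≤
          t * ((Y + X + B x) * ‖v‖) := by
        rw [abs_mul]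
        have h3 := (fderiv ℝ κ (mix r b g N x)).le_opNorm (fderiv ℝ (mix r b g N) x v)
        rw [Real.norm_eq_abs] at h3
        calc |fderiv ℝ κ (mix r b g N x) (fderiv ℝ (mix r b g N) x v)| * |x j|
            ≤ (t / (24 * R) * ((Y + X + B x) * ‖v‖)) * R := by
              refine mul_le_mul (h3.trans ?_) (hdx x hx j) (abs_nonneg _) (by positivity)
              exact mul_le_mul (C.hκd _) h1 (norm_nonneg _) (by positivity)
          _ = t * ((Y + X + B x) * ‖v‖) / 24 := by field_simp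
          _ ≤ t * ((Y + X + B x) * ‖v‖) := by
              have : 0 ≤ t * ((Y + X + B x) * ‖v‖) := by positivity
              linarith
      have h4 : |κ (mix r b g N x) * v j| ≤ t * ‖v‖ := by
        rw [abs_mul, abs_of_pos (hKp x hx)]
        exact mul_le_mul (C.hκt _) (norm_le_pi_norm v j) (abs_nonneg _) ht0.le
      have h5 := hgj j
      have h6 : t * ((Y + X + B x) * ‖v‖) ≤ (t * Y + X + B x) * ‖v‖ := by
        have e1 : t * (X + B x) ≤ 1 * (X + B x) :=
          mul_le_mul_of_nonneg_right C.ht1 (by linarith)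
        have e2 : t * ((Y + X + B x) * ‖v‖) = (t * Y + t * (X + B x)) * ‖v‖ := by ring
        rw [e2]
        exact mul_le_mul_of_nonneg_right (by linarith) (norm_nonneg v)
      rw [abs_le] at h2 h4 h5 ⊢
      constructor <;> nlinarith [h2.1, h2.2, h4.1, h4.2, h5.1, h5.2]
    · rw [nw_fd C.hU C.hκs g1 hN hx v j, if_neg hj']
      have h1 := hNB x hx j (by omega) v
      refine h1.trans ?_
      have e1 : 0 ≤ t * (1 + Y) := by positivity
      exact mul_le_mul_of_nonneg_right (by linarith) (norm_nonneg v)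
  · have h1 : AEStronglyMeasurable (fun x => fderiv ℝ g x - cl (F x)) (volume.restrict U) := by
      have h2 : ContinuousOn (fderiv ℝ g) U := g1.continuousOn_fderiv_of_isOpen C.hU (by simp)
      exact (h2.aestronglyMeasurable C.hU.measurableSet).sub (PK.IsSob.aesm C.hF)
    exact h1.norm.aemeasurable

end Vale.Agent.P073.R2.H488
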