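import Vale.Agent.P073.R2.H580.TowCp
import Vale.Agent.P073.R2.H580.TwoS
import Vale.Agent.P073.R2.H655.LThree
import Vale.Agent.P073.R2.H524.LocT
import Vale.Agent.P073.R2.H268.LTwo

/-!
# P073: towers over the layered and triangular maps and the maps with two smooth independent
components: the theorems
-/

namespace Vale.Agent.P073.R2.H488

open Vale.Agent.P073.St Vale.Agent.P073.R2.H580
open Vale.Agent.P073.H655.V6 (FinelyApproximable)

/-- maps with two smooth independent components are line preserving in smooth coordinates -/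
theorem toLine : VC.ToLine := fun {_ _ _} hU hf h =>
  line_of_two Vale.Agent.P073.R2.H524.specL1 Vale.Agent.P073.R2.H268.two_signs
    (fun Ω Λ f a1 a2 _ a4 a5 a6 δ a7 a8 =>
      Vale.Agent.P073.R2.H655.specL3 Ω Λ f a1 a2 a4 a5 a6 δ a7 a8) hU hf h

variable {p : ℝ} {Ω Λ : Set V}

/-- **towers are finely approximable** -/
theorem towerC_finely (hp : 1 ≤ p) (hΩ : St.IsBoundedDomain Ω)
    (hΛ : St.IsBoundedDomain Λ) {f : V → V} {F : V → Mat} (hf : St.IsHomeo Ω Λ f)
    (hF : St.IsSobolev p Ω f F) (h : VC.Tower p Ω Λ f) : FinelyApproximable p Ω Λ f F :=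
  VC.tower_finely' toLine hp hΩ hΛ hf hF h

/-- **towers are approximable** -/
theorem towerC_approximable (hp : 1 ≤ p) (hΩ : St.IsBoundedDomain Ω)
    (hΛ : St.IsBoundedDomain Λ) {f : V → V} {F : V → Mat} (hf : St.IsHomeo Ω Λ f)
    (hF : St.IsSobolev p Ω f F) (h : VC.Tower p Ω Λ f) : St.DiffeoApproximable p Ω Λ f F :=
  VC.tower_approximable' toLine hp hΩ hΛ hf hF h

/-- **the equivalence** -/
theorem towerC_iff (hp : 1 ≤ p) (hΩ : St.IsBoundedDomain Ω)
    (hΛ : St.IsBoundedDomain Λ) {f : V → V} {F : V → Mat} (hf : St.IsHomeo Ω Λ f)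
    (hF : St.IsSobolev p Ω f F) :
    VC.TowerApproximable p Ω Λ f F ↔ St.DiffeoApproximable p Ω Λ f F :=
  VC.tower_iff' toLine hp hΩ hΛ hf hF

end Vale.Agent.P073.R2.H488
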