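import Vale.Agent.P073.R2.H488.W2
import Vale.Agent.P073.R2.H488.Step3

/-!
# P073: directionally monotone blocks, weights: one step
-/

namespace Vale.Agent.P073.R2.H488

open MeasureTheory Set Filter Topology Metric Vale.Agent.P073.St Vale.Agent.P073.AB
open Vale.Agent.P073.SQ (ev)
open Vale.Agent.P073.PK (cl_apply)
open Vale.Agent.P073.MM
open Vale.Agent.P073.R2.H580 (SobLoc WFA Lv lv_open lv_sub clv_sub clv_compact sobLoc_lv exists_W)
open scoped ContDiff ENNReal

variable {p : ℝ} {U W : Set V} {f : V → V} {F : V → Mat} {r : Fin 3 → ℕ} {b₀ : ℕ}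
  {κ δ : V → ℝ} {R c : ℝ}

/-- the weak derivative is measurable -/
theorem aesm_loc (hU : IsOpen U) (hUb : Bornology.IsBounded U) (hF : SobLoc p U f F) :
    AEStronglyMeasurable (fun x => cl (F x)) (volume.restrict U) := by
  have hne : Uᶜ.Nonempty := by
    rw [nonempty_compl]
    rintro rfl
    exact NormedSpace.unbounded_univ ℝ V hUb
  have h1 : U = ⋃ n, Lv U n := by
    refine Subset.antisymm (fun x hx => ?_) (iUnion_subset fun n => lv_sub hU hne n)
    obtain ⟨N, hN⟩ := exists_lv ((hU.isClosed_compl.notMem_iff_infDist_pos hne).1 (by simpa using hx))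
    exact mem_iUnion.2 ⟨N, hN⟩
  rw [h1, aestronglyMeasurable_iUnion_iff]
  exact fun n => PK.IsSob.aesm (sobLoc_lv hU hUb hne hF n)

/-- **one step** -/
theorem stepW (C : WCtx p U W f F r b₀ κ δ R c) (b : ℕ) (hb : b₀ ≤ b) {N : V → V}
    {B w : V → ℝ} (hw : ContinuousOn w U) (hw0 : ∀ x ∈ U, 0 ≤ w x)
    (hN : ContDiffOn ℝ ∞ N U) (hNi : ∀ x ∈ U, ∀ v, fderiv ℝ N x v = 0 → v = 0)
    (hNx : ∀ x ∈ U, ∀ j, r j ≤ b → N x j = x j)
    (hNf : ∀ x ∈ U, ∀ j, b < r j → |N x j - f x j| ≤ 2 * R * κ (f x))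
    (hB0 : ∀ x ∈ U, 0 ≤ B x)
    (hNB : ∀ x ∈ U, ∀ j, b < r j → ∀ v, |fderiv ℝ N x v j - cl (F x) v j| ≤ B x * ‖v‖)
    {ε : ℝ} (hε : 0 < ε) :
    ∃ (M : V → V) (X : V → ℝ), ContDiffOn ℝ ∞ M U ∧
      (∀ x ∈ U, ∀ v, fderiv ℝ M x v = 0 → v = 0) ∧
      (∀ x ∈ U, ∀ j, r j < b → M x j = x j) ∧
      (∀ x ∈ U, ∀ j, b ≤ r j → |M x j - f x j| ≤ 2 * R * κ (f x)) ∧
      (∀ x ∈ U, ∀ j, b ≤ r j → ∀ v, |fderiv ℝ M x v j - cl (F x) v j| ≤
        (2 * X x + δ (f x) * (1 + ‖cl (F x)‖) + B x) * ‖v‖) ∧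
      (∀ x, 0 ≤ X x) ∧ AEMeasurable X (volume.restrict U) ∧
      ∫⁻ x in U, ENNReal.ofReal (w x) * ENNReal.ofReal (X x ^ p) ≤ ENNReal.ofReal ε := by
  have hR0 : 0 < R := by linarith [C.hR]
  have hc1 := C.hc
  have hc0 : 0 < c := by linarith
  obtain ⟨m, hmc, hm0, hm⟩ := inv_bound C.hU hN hNi
  have hκf : ∀ x ∈ U, 0 < κ (f x) := fun x hx => C.hκ0 _ (C.hfW x hx)
  set e : V → ℝ := fun x => κ (f x) / (1000 * c * (1 + m x)) with he
  have hec : ContinuousOn e U := by
    refine ContinuousOn.div (C.hκs.continuous.comp_continuousOn C.hfc)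
      (continuousOn_const.mul (continuousOn_const.add hmc)) fun x _ => ?_
    have := hm0 x
    positivity
  have he0 : ∀ x ∈ U, 0 < e x := fun x hx => by
    have := hm0 x
    have := hκf x hx
    show 0 < κ (f x) / (1000 * c * (1 + m x))
    positivity
  have hem : ∀ x, e x * c * (1 + m x) = κ (f x) / 1000 := by
    intro x
    have h1 : 0 < 1 + m x := by linarith [hm0 x]
    show κ (f x) / (1000 * c * (1 + m x)) * c * (1 + m x) = _
    field_simp
  have hel : ∀ x ∈ U, e x ≤ κ (f x) / 1000 := by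
    intro x hx
    have h1 := hem x
    have h2 := mul_nonneg (mul_nonneg (he0 x hx).le hc0.le) (hm0 x)
    have h3 : e x * 1 ≤ e x * c := mul_le_mul_of_nonneg_left hc1 (he0 x hx).le
    nlinarith
  obtain ⟨g, g1, g2, g3, g4, g5⟩ := smoothDW C.hp C.hU C.hUb C.hfc C.hF C.hfl hec he0
    hw hw0 hε
  -- the mixed map
  have hG : ∀ x ∈ U, ‖mix r b g N x - f x‖ ≤ 2 * R * κ (f x) := by
    intro x hx
    have hk := hκf x hx
    refine (pi_norm_le_iff_of_nonneg (by positivity)).2 fun j => ?_
    show |mix r b g N x j - f x j| ≤ _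
    by_cases hj : r j ≤ b
    · simp only [mix, hj, if_true]
      have h1 : |g x j - f x j| ≤ e x := (norm_le_pi_norm (g x - f x) j).trans (g2 x hx)
      have h2 := hel x hx
      have h3 : κ (f x) ≤ R * κ (f x) := by nlinarith [C.hR]
      linarith
    · simp only [mix, hj, if_false]
      exact hNf x hx j (by omega)
  have hK : ∀ x ∈ U, |κ (mix r b g N x) - κ (f x)| ≤ κ (f x) / 12 := by
    intro x hx
    have hk := hκf x hx
    refine (C.lip _ _).trans ?_
    calc 1 / (24 * R * c) * ‖mix r b g N x - f x‖ ≤ 1 / (24 * R * c) * (2 * R * κ (f x)) := by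
          have := hG x hx
          gcongr
      _ = κ (f x) / (12 * c) := by field_simp; ring
      _ ≤ κ (f x) / 12 := by
          apply div_le_div_of_nonneg_left (hκf x hx).le (by norm_num)
          linarith
  have hKp : ∀ x ∈ U, 0 < κ (mix r b g N x) := by
    intro x hx
    have := (abs_le.1 (hK x hx)).1
    linarith [hκf x hx]
  have hdκ : ∀ y, ‖fderiv ℝ κ y‖ ≤ 1 / (24 * R * c) := C.hdκ
  have hden := C.hden
  have hδG : ∀ x ∈ U, δ (mix r b g N x) ≤ 2 * δ (f x) := by
    intro x hx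
    have h1 := (C.hδl (mix r b g N x) (f x)).trans (hG x hx)
    have h2 : 2 * R * κ (f x) ≤ δ (f x) := by
      calc 2 * R * κ (f x) ≤ 2 * R * (δ (f x) / (24 * R * c)) := by
            have := C.hκδ (f x)
            gcongr
        _ = δ (f x) / (12 * c) := by field_simp; ring
        _ ≤ δ (f x) := div_le_self (C.hδ0 _) (by linarith)
    have h3 := (abs_le.1 h1).2
    linarith
  have hκG : ∀ x ∈ U, κ (mix r b g N x) ≤ δ (f x) := by
    intro x hx
    refine (C.hκδ _).trans ?_
    have h1 := hδG x hx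
    have h2 := C.hδ0 (f x)
    rw [div_le_iff₀ (by linarith)]
    nlinarith
  have hdx : ∀ x ∈ U, ∀ j, |x j| ≤ R := fun x hx j => (norm_le_pi_norm x j).trans (C.hUR x hx)
  refine ⟨nw r κ b g N, fun x => ‖fderiv ℝ g x - cl (F x)‖, nw_smooth C.hκs g1 hN,
    fun x hx h hh => ?_, fun x hx j hj => ?_, fun x hx j hj => ?_, fun x hx j hj v => ?_,
    fun x => norm_nonneg _, ?_, g3⟩
  · -- nonsingular
    have hc : ∀ j, fderiv ℝ (nw r κ b g N) x h j = 0 := fun j => by rw [hh]; rfl
    have hfd := fun j => (nw_fd (r := r) (b := b) C.hU C.hκs g1 hN hx h j).symm.trans (hc j)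
    have hmf := fun j => mix_fd (r := r) (b := b) C.hU g1 hN hx h j
    have hNd : ∀ j, r j ≤ b → fderiv ℝ N x h j = h j := by
      intro j hj
      have e1 : (fun y => N y j) =ᶠ[𝓝 x] fun y => y j := by
        filter_upwards [C.hU.mem_nhds hx] with y hy using hNx y hy j hj
      have h1 := (fd_comp C.hU hN hx j).congr_of_eventuallyEq e1.symm
      have h3 : HasFDerivAt (fun y : V => y j)
          (ContinuousLinearMap.proj (R := ℝ) (φ := fun _ : Fin 3 => ℝ) j) x :=
        (ContinuousLinearMap.proj (R := ℝ) (φ := fun _ : Fin 3 => ℝ) j).hasFDerivAt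
      exact congrArg (fun L : V →L[ℝ] ℝ => L h) (h1.unique h3)
    have hk := hκf x hx
    obtain ⟨n, w1, w2, w3, w4⟩ := g5 x hx b hb (fderiv ℝ N x h) (fun j hj => by
      have := hfd j
      rwa [if_neg hj] at this)
    refine algW (n := n) (c := c) (r := r) (b := b) (A := fderiv ℝ N x) (D := fderiv ℝ g x) (h := h) (x := x)
      (v := fderiv ℝ (mix r b g N) x h) (K := κ (mix r b g N x)) (R := R) (e := e x) (m := m x)
      (q := fderiv ℝ κ (mix r b g N x) (fderiv ℝ (mix r b g N) x h)) C.hR C.hc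
      (C.hUR x hx) (hKp x hx)
      (he0 x hx) (hm0 x) (hNi x hx) (hm x hx h) (fun j hj => ?_) (fun j hj => (hNd j hj).symm)
      (fun j hj => ?_) (fun j hj => ?_) ?_ (fun j hj => ?_)
      (fun i j hij hj => g4 x hx i j hij (hb.trans hj)) w1 w2 w3 w4 ?_
    · have := hfd j
      rwa [if_neg hj] at this
    · rw [hmf j, if_pos hj]
    · rw [hmf j, if_neg (by omega)]
    · have h1 := (fderiv ℝ κ (mix r b g N x)).le_opNorm (fderiv ℝ (mix r b g N) x h)
      rw [Real.norm_eq_abs] at h1
      refine h1.trans ?_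
      calc ‖fderiv ℝ κ (mix r b g N x)‖ * ‖fderiv ℝ (mix r b g N) x h‖
          ≤ 1 / (24 * R * c) * ‖fderiv ℝ (mix r b g N) x h‖ := by
            gcongr
            exact hdκ _
        _ = _ := by ring
    · have := hfd j
      rwa [if_pos hj] at this
    · rw [hem x]
      have := (abs_le.1 (hK x hx)).1
      linarith
  · show nw r κ b g N x j = x j
    unfold nw
    rw [if_neg hj.ne]
    exact hNx x hx j hj.le
  · unfold nw
    by_cases hj' : r j = b
    · simp only [hj', if_true]
      have hk := hκf x hx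
      have h1 : |g x j - f x j| ≤ e x := (norm_le_pi_norm (g x - f x) j).trans (g2 x hx)
      have h2 := hel x hx
      have h3 : κ (f x) ≤ R * κ (f x) := by nlinarith [C.hR]
      have h4 : |κ (mix r b g N x) * x j| ≤ (13 / 12 * κ (f x)) * R := by
        rw [abs_mul, abs_of_pos (hKp x hx)]
        have := (abs_le.1 (hK x hx)).2
        exact mul_le_mul (by linarith) (hdx x hx j) (abs_nonneg _) (by positivity)
      rw [abs_le] at h1 h4 ⊢
      constructor <;> linarith [h1.1, h1.2, h4.1, h4.2]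
    · simp only [hj', if_false]
      exact hNf x hx j (by omega)
  · -- the derivative
    set X : ℝ := ‖fderiv ℝ g x - cl (F x)‖ with hX
    set Y : ℝ := ‖cl (F x)‖ with hY
    have hX0 : 0 ≤ X := norm_nonneg _
    have hY0 : 0 ≤ Y := norm_nonneg _
    have hb0 := hB0 x hx
    have ht0 := C.hδ0 (f x)
    have ht1 := C.hδ1 (f x)
    set t : ℝ := δ (f x) with ht
    have hgj : ∀ j, |fderiv ℝ g x v j - cl (F x) v j| ≤ X * ‖v‖ := by
      intro j
      have h1 := (fderiv ℝ g x - cl (F x)).le_opNorm v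
      exact (norm_le_pi_norm ((fderiv ℝ g x - cl (F x)) v) j).trans h1
    by_cases hj' : r j = b
    · rw [nw_fd C.hU C.hκs g1 hN hx v j, if_pos hj']
      have h1 : ‖fderiv ℝ (mix r b g N) x v‖ ≤ (Y + X + B x) * ‖v‖ := by
        refine (pi_norm_le_iff_of_nonneg (by positivity)).2 fun i => ?_
        rw [Real.norm_eq_abs, mix_fd C.hU g1 hN hx v i]
        have hFi : |cl (F x) v i| ≤ Y * ‖v‖ :=
          (norm_le_pi_norm (cl (F x) v) i).trans ((cl (F x)).le_opNorm v)
        have e1 : 0 ≤ X * ‖v‖ := by positivity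
        have e2 : 0 ≤ B x * ‖v‖ := by positivity
        by_cases hi : r i ≤ b
        · rw [if_pos hi]
          have := hgj i
          rw [abs_le] at this hFi ⊢
          constructor <;> nlinarith [this.1, this.2, hFi.1, hFi.2]
        · rw [if_neg hi]
          have := hNB x hx i (by omega) v
          rw [abs_le] at this hFi ⊢
          constructor <;> nlinarith [this.1, this.2, hFi.1, hFi.2]
      have h2 : |fderiv ℝ κ (mix r b g N x) (fderiv ℝ (mix r b g N) x v) * x j| ≤
          t * ((Y + X + B x) * ‖v‖) := by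
        rw [abs_mul]
        have h3 := (fderiv ℝ κ (mix r b g N x)).le_opNorm (fderiv ℝ (mix r b g N) x v)
        rw [Real.norm_eq_abs] at h3
        calc |fderiv ℝ κ (mix r b g N x) (fderiv ℝ (mix r b g N) x v)| * |x j|
            ≤ (2 * t / (24 * R * c) * ((Y + X + B x) * ‖v‖)) * R := by
              refine mul_le_mul (h3.trans ?_) (hdx x hx j) (abs_nonneg _) (by positivity)
              refine mul_le_mul ((C.hκd _).trans ?_) h1 (norm_nonneg _) (by positivity)
              have := hδG x hx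
              gcongr
          _ = t * ((Y + X + B x) * ‖v‖) / (12 * c) := by field_simp; ring
          _ ≤ t * ((Y + X + B x) * ‖v‖) := by
              refine div_le_self (by positivity) (by linarith)
      have h4 : |κ (mix r b g N x) * v j| ≤ t * ‖v‖ := by
        rw [abs_mul, abs_of_pos (hKp x hx)]
        exact mul_le_mul (hκG x hx) (norm_le_pi_norm v j) (abs_nonneg _) ht0
      have h5 := hgj j
      have h6 : t * ((Y + X + B x) * ‖v‖) ≤ (t * Y + X + B x) * ‖v‖ := by
        have e1 : t * (X + B x) ≤ 1 * (X + B x) :=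
          mul_le_mul_of_nonneg_right ht1 (by linarith)
        have e2 : t * ((Y + X + B x) * ‖v‖) = (t * Y + t * (X + B x)) * ‖v‖ := by ring
        rw [e2]
        exact mul_le_mul_of_nonneg_right (by linarith) (norm_nonneg v)
      rw [abs_le] at h2 h4 h5 ⊢
      constructor <;> nlinarith [h2.1, h2.2, h4.1, h4.2, h5.1, h5.2]
    · rw [nw_fd C.hU C.hκs g1 hN hx v j, if_neg hj']
      have h1 := hNB x hx j (by omega) v
      refine h1.trans ?_
      have e1 : 0 ≤ t * (1 + Y) := by positivity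
      exact mul_le_mul_of_nonneg_right (by linarith) (norm_nonneg v)
  · have h1 : AEStronglyMeasurable (fun x => fderiv ℝ g x - cl (F x)) (volume.restrict U) := by
      have h2 : ContinuousOn (fderiv ℝ g) U := g1.continuousOn_fderiv_of_isOpen C.hU (by simp)
      exact (h2.aestronglyMeasurable C.hU.measurableSet).sub (aesm_loc C.hU C.hUb C.hF)
    exact h1.norm.aemeasurable

end Vale.Agent.P073.R2.H488
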