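import Vale.Agent.P073.R2.H488.W3
import Vale.Agent.P073.R2.H524.ExT
import Vale.Agent.P073.MM.H694.Pert2

/-!
# P073: directionally monotone blocks: weighted fine approximation
-/

namespace Vale.Agent.P073.R2.H488

open MeasureTheory Set Filter Topology Metric Vale.Agent.P073.St Vale.Agent.P073.AB
open Vale.Agent.P073.SQ (ev)
open Vale.Agent.P073.PK (cl_apply)
open Vale.Agent.P073.MM
open Vale.Agent.P073.R2.H580 (SobLoc WFA Lv lv_open lv_sub clv_sub clv_compact sobLoc_lv exists_W)
open scoped ContDiff ENNReal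

variable {p : ℝ} {U W : Set V} {f : V → V} {F : V → Mat} {r : Fin 3 → ℕ} {b₀ : ℕ}
  {κ δ : V → ℝ} {R c : ℝ}

/-- the levels from the top down are done -/
theorem stepsW (C : WCtx p U W f F r b₀ κ δ R c) {L : ℕ} (hL : ∀ j, r j < L) {w : V → ℝ}
    (hw : ContinuousOn w U) (hw0 : ∀ x ∈ U, 0 ≤ w x) :
    ∀ n : ℕ, n + b₀ ≤ L → ∀ ε : ℝ, 0 < ε → ∃ (M : V → V) (Z : V → ℝ), ContDiffOn ℝ ∞ M U ∧
      (∀ x ∈ U, ∀ v, fderiv ℝ M x v = 0 → v = 0) ∧
      (∀ x ∈ U, ∀ j, r j < L - n → M x j = x j) ∧
      (∀ x ∈ U, ∀ j, L - n ≤ r j → |M x j - f x j| ≤ 2 * R * κ (f x)) ∧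
      (∀ x ∈ U, ∀ j, L - n ≤ r j → ∀ v, |fderiv ℝ M x v j - cl (F x) v j| ≤
        (Z x + n * δ (f x) * (1 + ‖cl (F x)‖)) * ‖v‖) ∧
      (∀ x, 0 ≤ Z x) ∧ AEMeasurable Z (volume.restrict U) ∧
      ∫⁻ x in U, ENNReal.ofReal (w x) * ENNReal.ofReal (Z x ^ p) ≤ ENNReal.ofReal ε := by
  have hp0 : 0 < p := by linarith [C.hp]
  have hwm : AEMeasurable (fun x => ENNReal.ofReal (w x)) (volume.restrict U) :=
    (hw.aemeasurable C.hU.measurableSet).ennreal_ofReal
  intro n
  induction n with
  | zero =>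
    intro _ ε hε
    refine ⟨fun x => x, fun _ => 0, contDiffOn_id, fun x _ v hv => ?_, fun x _ j _ => rfl,
      fun x _ j hj => ?_, fun x _ j hj => ?_, fun x => le_rfl, aemeasurable_const, ?_⟩
    · have h1 : fderiv ℝ (fun x : V => x) x = ContinuousLinearMap.id ℝ V := fderiv_id'
      rw [h1] at hv
      exact hv
    · have := hL j
      omega
    · have := hL j
      omega
    · simp [Real.zero_rpow hp0.ne']
  | succ n ih =>
    intro hn ε hε
    have h2p : (0 : ℝ) < 2 ^ p := by positivity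
    obtain ⟨N, Z, n1, n2, n3, n4, n5, n6, n7, n8⟩ := ih (by omega) (ε / (2 * 2 ^ p)) (by positivity)
    have hb : L - (n + 1) + 1 = L - n := by omega
    obtain ⟨M, X, m1, m2, m3, m4, m5, m6, m7, m8⟩ := stepW C (L - (n + 1)) (by omega) (N := N)
      (B := fun x => Z x + n * δ (f x) * (1 + ‖cl (F x)‖)) hw hw0 n1 n2
      (fun x hx j hj => n3 x hx j (by omega)) (fun x hx j hj => n4 x hx j (by omega))
      (fun x _ => by have := n6 x; have := C.hδ0 (f x); positivity)
      (fun x hx j hj => n5 x hx j (by omega))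
      (ε := ε / (2 * 2 ^ p * 2 ^ p)) (by positivity)
    refine ⟨M, fun x => Z x + 2 * X x, m1, m2, fun x hx j hj => m3 x hx j hj,
      fun x hx j hj => m4 x hx j hj, fun x hx j hj v => (m5 x hx j hj v).trans (le_of_eq ?_),
      fun x => by have := n6 x; have := m6 x; positivity, n7.add (m7.const_mul 2), ?_⟩
    · push_cast
      ring
    · calc ∫⁻ x in U, ENNReal.ofReal (w x) * ENNReal.ofReal ((Z x + 2 * X x) ^ p)
          ≤ ∫⁻ x in U, ENNReal.ofReal (2 ^ p) * (ENNReal.ofReal (w x) * ENNReal.ofReal (Z x ^ p) +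
              ENNReal.ofReal (2 ^ p) * (ENNReal.ofReal (w x) * ENNReal.ofReal (X x ^ p))) := by
            refine lintegral_mono fun x => ?_
            have z0 := n6 x
            have x0 := m6 x
            have h1 : ENNReal.ofReal ((Z x + 2 * X x) ^ p) ≤ ENNReal.ofReal (2 ^ p) *
                (ENNReal.ofReal (Z x ^ p) + ENNReal.ofReal (2 ^ p) * ENNReal.ofReal (X x ^ p)) := by
              rw [← ENNReal.ofReal_mul (by positivity), ← ENNReal.ofReal_add (by positivity)
                (by positivity), ← ENNReal.ofReal_mul (by positivity)]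
              apply ENNReal.ofReal_le_ofReal
              refine (add_pow_le hp0.le z0 (by positivity)).trans ?_
              rw [Real.mul_rpow (by norm_num) x0]
            refine (mul_le_mul_right h1 (ENNReal.ofReal (w x))).trans (le_of_eq ?_)
            ring
        _ = ENNReal.ofReal (2 ^ p) * ((∫⁻ x in U, ENNReal.ofReal (w x) *
              ENNReal.ofReal (Z x ^ p)) + ENNReal.ofReal (2 ^ p) *
                ∫⁻ x in U, ENNReal.ofReal (w x) * ENNReal.ofReal (X x ^ p)) := by
            have hzm : AEMeasurable (fun x => ENNReal.ofReal (w x) * ENNReal.ofReal (Z x ^ p))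
                (volume.restrict U) := hwm.mul (n7.pow_const p).ennreal_ofReal
            rw [lintegral_const_mul' _ _ ENNReal.ofReal_ne_top, lintegral_add_left' hzm,
              lintegral_const_mul' _ _ ENNReal.ofReal_ne_top]
        _ ≤ ENNReal.ofReal (2 ^ p) * (ENNReal.ofReal (ε / (2 * 2 ^ p)) +
              ENNReal.ofReal (2 ^ p) * ENNReal.ofReal (ε / (2 * 2 ^ p * 2 ^ p))) := by
            gcongr
        _ = ENNReal.ofReal ε := by
            rw [← ENNReal.ofReal_mul (by positivity), ← ENNReal.ofReal_add (by positivity)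
              (by positivity), ← ENNReal.ofReal_mul (by positivity)]
            congr 1
            field_simp
            ring

/-- local integrability of the energy density -/
theorem loc_int (hp : 1 ≤ p) (hU : IsOpen U) (hUb : Bornology.IsBounded U)
    (hF : SobLoc p U f F) {w : V → ℝ} (hw : ContinuousOn w U) (A : ℝ) {K : Set V}
    (hK : IsCompact K) (hKU : K ⊆ U) :
    ∫⁻ x in K, ENNReal.ofReal (w x) * (ENNReal.ofReal A *
      (1 + ENNReal.ofReal (‖cl (F x)‖ ^ p))) ≠ ⊤ := by
  have hp0 : 0 < p := by linarith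
  have hne : Uᶜ.Nonempty := by
    rw [nonempty_compl]
    rintro rfl
    exact NormedSpace.unbounded_univ ℝ V hUb
  obtain ⟨M, hM⟩ := hK.exists_bound_of_continuousOn (hw.mono hKU)
  obtain ⟨n, hn⟩ : ∃ n, K ⊆ Lv U n := by
    rcases K.eq_empty_or_nonempty with rfl | hKn
    · exact ⟨0, empty_subset _⟩
    · obtain ⟨z, hz, hmin⟩ := hK.exists_isMinOn hKn
        (continuous_infDist_pt (Uᶜ)).continuousOn
      have h1 : 0 < infDist z Uᶜ :=
        (hU.isClosed_compl.notMem_iff_infDist_pos hne).1 (by simpa using hKU hz)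
      obtain ⟨N, hN⟩ := exists_lv h1
      exact ⟨N, fun x hx => hN.trans_le (hmin hx)⟩
  have hS := sobLoc_lv hU hUb hne hF n
  have h1 : ∫⁻ x in Lv U n, ENNReal.ofReal (‖cl (F x)‖ ^ p) ≠ ⊤ := by
    have h2 := PK.IsSob.lintegral_ne_top hp hS
    simp_rw [ofReal_norm_rpow hp0.le]
    exact h2
  have h3 : ∫⁻ x in K, ENNReal.ofReal M * (ENNReal.ofReal A *
      (1 + ENNReal.ofReal (‖cl (F x)‖ ^ p))) ≠ ⊤ := by
    rw [lintegral_const_mul' _ _ ENNReal.ofReal_ne_top,
      lintegral_const_mul' _ _ ENNReal.ofReal_ne_top, lintegral_add_left' aemeasurable_const,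
      lintegral_one, Measure.restrict_apply_univ]
    refine ENNReal.mul_ne_top ENNReal.ofReal_ne_top (ENNReal.mul_ne_top ENNReal.ofReal_ne_top
      (ENNReal.add_ne_top.2 ⟨hK.measure_lt_top.ne, ?_⟩))
    exact ne_top_of_le_ne_top h1 (lintegral_mono_set hn)
  refine ne_top_of_le_ne_top h3 (setLIntegral_mono' hK.measurableSet fun x hx => ?_)
  gcongr
  exact (le_abs_self _).trans (hM x hx)

end Vale.Agent.P073.R2.H488
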