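import Vale.Agent.P073.R2.H488.W4

/-!
# P073: directionally monotone blocks: weighted fine approximation, the theorem
-/

namespace Vale.Agent.P073.R2.H488

open MeasureTheory Set Filter Topology Metric Vale.Agent.P073.St Vale.Agent.P073.AB
open Vale.Agent.P073.SQ (ev)
open Vale.Agent.P073.PK (cl_apply)
open Vale.Agent.P073.MM
open Vale.Agent.P073.R2.H580 (SobLoc WFA Lv lv_open lv_sub clv_sub clv_compact sobLoc_lv exists_W)
open scoped ContDiff ENNReal

variable {p : ℝ} {U W : Set V} {f : V → V} {F : V → Mat} {r : Fin 3 → ℕ} {b₀ : ℕ} {c : ℝ}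

/-- the smooth rows are kept -/
noncomputable def low (r : Fin 3 → ℕ) (b₀ : ℕ) (f M : V → V) (x : V) : V := fun j =>
  if r j < b₀ then f x j else M x j

theorem low_smooth {M : V → V} (hsm : ∀ j, r j < b₀ → ContDiffOn ℝ ∞ (fun x => f x j) U)
    (hM : ContDiffOn ℝ ∞ M U) : ContDiffOn ℝ ∞ (low r b₀ f M) U := by
  rw [contDiffOn_pi]
  intro j
  unfold low
  by_cases hj : r j < b₀
  · simp only [hj, if_true]
    exact hsm j hj
  · simp only [hj, if_false]
    exact contDiffOn_pi.1 hM j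

theorem low_fd {M : V → V} (hU : IsOpen U)
    (hsm : ∀ j, r j < b₀ → ContDiffOn ℝ ∞ (fun x => f x j) U)
    (hM : ContDiffOn ℝ ∞ M U) {x : V} (hx : x ∈ U) (v : V) (j : Fin 3) :
    fderiv ℝ (low r b₀ f M) x v j =
      if r j < b₀ then fderiv ℝ (fun z => f z j) x v else fderiv ℝ M x v j := by
  have h1 := fd_comp hU (low_smooth hsm hM) hx j
  by_cases hj : r j < b₀
  · rw [if_pos hj]
    have e1 : (fun y => low r b₀ f M y j) = fun y => f y j := by
      funext y
      simp [low, hj]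
    rw [e1] at h1
    rw [h1.fderiv]
    rfl
  · rw [if_neg hj]
    have e1 : (fun y => low r b₀ f M y j) = fun y => M y j := by
      funext y
      simp [low, hj]
    rw [e1] at h1
    exact congrArg (fun L : V →L[ℝ] ℝ => L v) (h1.unique (fd_comp hU hM hx j))

/-- the weak derivative of the smooth rows -/
theorem ae_low (hp : 1 ≤ p) (hU : IsOpen U) (hUb : Bornology.IsBounded U)
    (hF : SobLoc p U f F) (j : Fin 3) (hj : ContDiffOn ℝ ∞ (fun x => f x j) U) :
    ∀ᵐ x ∂(volume : Measure V), x ∈ U → ∀ v : V, cl (F x) v j = fderiv ℝ (fun z => f z j) x v := by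
  have hne : Uᶜ.Nonempty := by
    rw [nonempty_compl]
    rintro rfl
    exact NormedSpace.unbounded_univ ℝ V hUb
  have h1 : ∀ n : ℕ, ∀ i : Fin 3, ∀ᵐ x ∂(volume : Measure V), x ∈ Lv U n →
      F x j i = fderiv ℝ (fun z => f z j) x (ev i) := by
    intro n i
    have hb : Bornology.IsBounded (Lv U n) := hUb.subset (lv_sub hU hne n)
    exact H580.ae_comp hp hb.measure_lt_top.ne (sobLoc_lv hU hUb hne hF n) (lv_open U n)
      Subset.rfl j (hj.mono (lv_sub hU hne n)) i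
  have h2 : ∀ᵐ x ∂(volume : Measure V), ∀ n : ℕ, ∀ i : Fin 3, x ∈ Lv U n →
      F x j i = fderiv ℝ (fun z => f z j) x (ev i) :=
    ae_all_iff.2 fun n => ae_all_iff.2 fun i => h1 n i
  filter_upwards [h2] with x hx hxU v
  obtain ⟨N, hN⟩ := exists_lv ((hU.isClosed_compl.notMem_iff_infDist_pos hne).1
    (by simpa using hxU))
  have h3 : v = ∑ i, v i • ev i := by
    funext k
    simp [ev, Finset.sum_apply, Pi.single_apply]
  rw [cl_apply]
  conv_rhs => rw [h3, map_sum]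
  refine Finset.sum_congr rfl fun i _ => ?_
  rw [map_smul, smul_eq_mul, hx N i hN, mul_comm]

/-- **weighted fine approximation** -/
theorem wfa_flag (hp : 1 ≤ p) (hU : IsOpen U) (hUb : Bornology.IsBounded U) (hW : IsOpen W)
    (hf : St.IsHomeo U W f) (hF : SobLoc p U f F) (hc : 1 ≤ c) (hfl : DFlagFrom U F r b₀ c)
    (hsm : ∀ j, r j < b₀ → ContDiffOn ℝ ∞ (fun x => f x j) U)
    (hker : ∀ x ∈ U, ∀ h : V, (∀ j, r j < b₀ → fderiv ℝ (fun z => f z j) x h = 0) →
      ∀ j, r j < b₀ → h j = 0) {δ₀ : V → ℝ} (hδ₀ : ContinuousOn δ₀ U)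
    (hδ₀0 : ∀ x ∈ U, 0 < δ₀ x)
    (hN : ∀ g : V → V, ContDiffOn ℝ ∞ g U → (∀ x ∈ U, ∀ v, fderiv ℝ g x v = 0 → v = 0) →
      (∀ x ∈ U, ‖g x - f x‖ ≤ δ₀ x) → St.IsDiffeo U W g) : WFA p U W f F := by
  intro σ w hσ hσ0 hw hw0
  have hp0 : 0 < p := by linarith
  obtain ⟨k, ⟨hk1, hk2⟩, hfc, hkc⟩ := id hf
  obtain ⟨R, hR1, hR⟩ : ∃ R : ℝ, 1 ≤ R ∧ ∀ x ∈ U, ‖x‖ ≤ R := by
    obtain ⟨R, hR⟩ := hUb.exists_norm_le
    exact ⟨max R 1, le_max_right _ _, fun x hx => (hR x hx).trans (le_max_left _ _)⟩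
  have hR0 : 0 < R := by linarith
  have hc0 : 0 < c := by linarith
  obtain ⟨L, hL, hLb⟩ : ∃ L : ℕ, (∀ j, r j < L) ∧ b₀ ≤ L :=
    ⟨r 0 + r 1 + r 2 + 1 + b₀, fun j => by fin_cases j <;> simp <;> omega, by omega⟩
  have hwm : AEMeasurable (fun x => ENNReal.ofReal (w x)) (volume.restrict U) :=
    (hw.aemeasurable hU.measurableSet).ennreal_ofReal
  have hmF : AEMeasurable (fun x => ENNReal.ofReal (‖cl (F x)‖ ^ p)) (volume.restrict U) :=
    ((aesm_loc hU hUb hF).norm.aemeasurable.pow_const p).ennreal_ofReal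
  set A : ℝ := 3 ^ p * (L : ℝ) ^ p with hA
  set u : V → ℝ≥0∞ := fun x => ENNReal.ofReal (w x) * (ENNReal.ofReal A *
    (1 + ENNReal.ofReal (‖cl (F x)‖ ^ p))) with hu
  have hum : AEMeasurable u (volume.restrict U) :=
    hwm.mul ((aemeasurable_const.add hmF).const_mul _)
  obtain ⟨t, htc, ht01, ht0, htu⟩ := H524.exists_t hU hUb hum
    (fun K hK hKU => loc_int hp hU hUb hF hw A hK hKU) (ε := 1 / 2) (by norm_num)
  -- the closeness
  set s : V → ℝ := fun x => min (min (σ x) (δ₀ x)) (t x) with hs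
  have hsc : ContinuousOn s U := (hσ.inf hδ₀).inf htc.continuousOn
  have hs0 : ∀ x ∈ U, 0 < s x := fun x hx => lt_min (lt_min (hσ0 x hx) (hδ₀0 x hx)) (ht0 x hx)
  have hkm : MapsTo k W U := fun y hy => (hk2 y hy).1
  set δ₁ : V → ℝ := fun y => min 1 (s (k y)) with hδ₁
  have hδ₁c : ContinuousOn δ₁ W := continuousOn_const.inf (hsc.comp hkc hkm)
  have hδ₁0 : ∀ y ∈ W, 0 < δ₁ y := fun y hy => lt_min one_pos (hs0 _ (hkm hy))
  have hδ₁1 : ∀ y, δ₁ y ≤ 1 := fun y => min_le_left _ _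
  obtain ⟨δ, hδs, hδ, hδW⟩ := Vale.Agent.P073.exists_kappa hW hδ₁c hδ₁0
  have hδnn : ∀ y, 0 ≤ δ y := fun y => by
    by_cases hy : y ∈ W
    · exact (hδ y hy).1.le
    · rw [hδW y hy]
  have hδl := H694.lip_of_kappa (W := W) hδs (fun y hy => ⟨(hδ y hy).1,
    (hδ y hy).2.2.le.trans (hδ₁1 y)⟩) hδW
  have hRc : 0 < 24 * R * c := by positivity
  have hδc' : ContinuousOn (fun y => δ y / (24 * R * c)) W := (hδs.continuous.continuousOn).div_const _
  obtain ⟨κ, hκs, hκ, hκW⟩ := Vale.Agent.P073.exists_kappa hW hδc'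
    (fun y hy => div_pos (hδ y hy).1 hRc)
  have C : WCtx p U W f F r b₀ κ δ R c :=
    { hp := hp
      hU := hU
      hUb := hUb
      hfc := hfc
      hfW := fun x hx => (hk1 x hx).1
      hF := hF
      hfl := hfl
      hc := hc
      hR := hR1
      hUR := hR
      hκs := hκs
      hκ0 := fun y hy => (hκ y hy).1
      hδ0 := hδnn
      hδ1 := fun y => by
        by_cases hy : y ∈ W
        · exact (hδ y hy).2.1.le.trans (hδ₁1 y)
        · rw [hδW y hy]; exact zero_le_one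
      hδl := hδl
      hκδ := fun y => by
        by_cases hy : y ∈ W
        · exact (hκ y hy).2.1.le
        · rw [hκW y hy, hδW y hy, zero_div]
      hκd := fun y => by
        by_cases hy : y ∈ W
        · exact (hκ y hy).2.2.le
        · have hmin : IsLocalMin κ y := by
            refine Filter.Eventually.of_forall fun z => ?_
            show κ y ≤ κ z
            rw [hκW y hy]
            by_cases hz : z ∈ W
            · exact (hκ z hz).1.le
            · rw [hκW z hz]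
          rw [hmin.fderiv_eq_zero, norm_zero]
          exact div_nonneg (hδnn y) hRc.le }
  obtain ⟨M, Z, g1, g2, g3, g4, g5, g6, g7, g8⟩ := stepsW C hL hw hw0 (L - b₀) (by omega)
    (1 / (2 * 3 ^ p)) (by positivity)
  have hLL : L - (L - b₀) = b₀ := by omega
  rw [hLL] at g3 g4 g5
  have hδs' : ∀ x ∈ U, δ (f x) ≤ s x := by
    intro x hx
    have h1 := (hδ _ (hk1 x hx).1).2.1.le.trans (min_le_right _ _)
    rwa [(hk1 x hx).2] at h1
  have hκf : ∀ x ∈ U, 2 * R * κ (f x) ≤ s x := by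
    intro x hx
    calc 2 * R * κ (f x) ≤ 2 * R * (δ (f x) / (24 * R * c)) := by
          have := C.hκδ (f x)
          gcongr
      _ = δ (f x) / (12 * c) := by field_simp; ring
      _ ≤ δ (f x) := div_le_self (hδnn _) (by linarith)
      _ ≤ s x := hδs' x hx
  set g : V → V := low r b₀ f M with hg
  have hgs : ContDiffOn ℝ ∞ g U := low_smooth hsm g1
  have hgf : ∀ x ∈ U, ‖g x - f x‖ ≤ s x := by
    intro x hx
    refine (pi_norm_le_iff_of_nonneg (hs0 x hx).le).2 fun j => ?_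
    show |low r b₀ f M x j - f x j| ≤ _
    by_cases hj : r j < b₀
    · simp only [low, hj, if_true, sub_self, abs_zero]
      exact (hs0 x hx).le
    · simp only [low, hj, if_false]
      exact (g4 x hx j (by omega)).trans (hκf x hx)
  have hgi : ∀ x ∈ U, ∀ v, fderiv ℝ g x v = 0 → v = 0 := by
    intro x hx v hv
    have hc' : ∀ j, fderiv ℝ g x v j = 0 := fun j => by rw [hv]; rfl
    have hfd := fun j => (low_fd hU hsm g1 hx v j).symm.trans (hc' j)
    have h1 : ∀ j, r j < b₀ → v j = 0 := hker x hx v fun j hj => by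
      have := hfd j
      rwa [if_pos hj] at this
    refine g2 x hx v ?_
    funext j
    by_cases hj : r j < b₀
    · have e1 : (fun y => M y j) =ᶠ[𝓝 x] fun y => y j := by
        filter_upwards [hU.mem_nhds hx] with y hy using g3 y hy j hj
      have h2 := (fd_comp hU g1 hx j).congr_of_eventuallyEq e1.symm
      have h3 : HasFDerivAt (fun y : V => y j)
          (ContinuousLinearMap.proj (R := ℝ) (φ := fun _ : Fin 3 => ℝ) j) x :=
        (ContinuousLinearMap.proj (R := ℝ) (φ := fun _ : Fin 3 => ℝ) j).hasFDerivAt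
      have h4 : fderiv ℝ M x v j = v j :=
        congrArg (fun L : V →L[ℝ] ℝ => L v) (h2.unique h3)
      rw [h4, h1 j hj]
      rfl
    · have := hfd j
      rwa [if_neg hj] at this
  refine ⟨g, hN g hgs hgi fun x hx => (hgf x hx).trans ((min_le_left _ _).trans
    (min_le_right _ _)), fun x hx => (hgf x hx).trans ((min_le_left _ _).trans
    (min_le_left _ _)), ?_⟩
  have hae : ∀ᵐ x ∂(volume : Measure V), ∀ j : Fin 3, r j < b₀ → x ∈ U → ∀ v : V,
      cl (F x) v j = fderiv ℝ (fun z => f z j) x v := by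
    refine ae_all_iff.2 fun j => ?_
    by_cases hj : r j < b₀
    · filter_upwards [ae_low hp hU hUb hF j (hsm j hj)] with x hx _ using hx
    · exact ae_of_all _ fun x h => absurd h hj
  have hpt : ∀ᵐ x ∂(volume : Measure V), x ∈ U →
      ‖fderiv ℝ g x - cl (F x)‖ ≤ Z x + L * δ (f x) + L * δ (f x) * ‖cl (F x)‖ := by
    filter_upwards [hae] with x hx hxU
    have d0 := hδnn (f x)
    have z0 := g6 x
    have h0 : 0 ≤ Z x + L * δ (f x) + L * δ (f x) * ‖cl (F x)‖ := by positivity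
    refine ContinuousLinearMap.opNorm_le_bound _ h0 fun v => ?_
    refine (pi_norm_le_iff_of_nonneg (by positivity)).2 fun j => ?_
    show |fderiv ℝ g x v j - cl (F x) v j| ≤ _
    rw [hg, low_fd hU hsm g1 hxU v j]
    by_cases hj : r j < b₀
    · rw [if_pos hj, hx j hj hxU v, sub_self, abs_zero]
      positivity
    · rw [if_neg hj]
      refine (g5 x hxU j (by omega) v).trans ?_
      refine mul_le_mul_of_nonneg_right ?_ (norm_nonneg v)
      have h1 : ((L - b₀ : ℕ) : ℝ) ≤ L := by exact_mod_cast Nat.sub_le L b₀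
      have h2 : ((L - b₀ : ℕ) : ℝ) * δ (f x) * (1 + ‖cl (F x)‖) ≤
          (L : ℝ) * δ (f x) * (1 + ‖cl (F x)‖) := by gcongr
      linarith
  have key : ∀ᵐ x ∂(volume : Measure V), x ∈ U →
      ENNReal.ofReal (w x) * ENNReal.ofReal (‖fderiv ℝ g x - cl (F x)‖ ^ p) ≤
      ENNReal.ofReal (3 ^ p) * (ENNReal.ofReal (w x) * ENNReal.ofReal (Z x ^ p)) +
        ENNReal.ofReal (t x) * u x := by
    filter_upwards [hpt] with x hx hxU
    have d0 := hδnn (f x)
    have z0 := g6 x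
    have y0 := norm_nonneg (cl (F x))
    have hdt : δ (f x) ≤ t x := (hδs' x hxU).trans (min_le_right _ _)
    have hd1 : δ (f x) ≤ 1 := hdt.trans (ht01 x).2
    have hdp : δ (f x) ^ p ≤ t x := by
      calc δ (f x) ^ p ≤ δ (f x) ^ (1 : ℝ) :=
            Real.rpow_le_rpow_of_exponent_ge' d0 hd1 zero_le_one hp
        _ = δ (f x) := Real.rpow_one _
        _ ≤ t x := hdt
    have h1 : ‖fderiv ℝ g x - cl (F x)‖ ^ p ≤ 3 ^ p * Z x ^ p +
        t x * (A * (1 + ‖cl (F x)‖ ^ p)) := by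
      refine (Real.rpow_le_rpow (norm_nonneg _) (hx hxU) hp0.le).trans ?_
      refine (H694.rpow_add3_le hp z0 (by positivity) (by positivity)).trans ?_
      rw [Real.mul_rpow (by positivity) y0, Real.mul_rpow (by positivity) d0]
      have h2 : (L : ℝ) ^ p * δ (f x) ^ p ≤ (L : ℝ) ^ p * t x := by gcongr
      have h3 : (L : ℝ) ^ p * δ (f x) ^ p * ‖cl (F x)‖ ^ p ≤
          (L : ℝ) ^ p * t x * ‖cl (F x)‖ ^ p := by gcongr
      calc 3 ^ p * (Z x ^ p + (L : ℝ) ^ p * δ (f x) ^ p +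
            (L : ℝ) ^ p * δ (f x) ^ p * ‖cl (F x)‖ ^ p)
          ≤ 3 ^ p * (Z x ^ p + (L : ℝ) ^ p * t x + (L : ℝ) ^ p * t x * ‖cl (F x)‖ ^ p) := by
            gcongr
        _ = _ := by rw [hA]; ring
    have t0 := (ht01 x).1
    have hA0 : 0 ≤ A := by positivity
    calc ENNReal.ofReal (w x) * ENNReal.ofReal (‖fderiv ℝ g x - cl (F x)‖ ^ p)
        ≤ ENNReal.ofReal (w x) * ENNReal.ofReal (3 ^ p * Z x ^ p +
            t x * (A * (1 + ‖cl (F x)‖ ^ p))) := by gcongr
      _ = ENNReal.ofReal (w x) * (ENNReal.ofReal (3 ^ p) * ENNReal.ofReal (Z x ^ p) +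
            ENNReal.ofReal (t x) * (ENNReal.ofReal A * (1 + ENNReal.ofReal (‖cl (F x)‖ ^ p)))) := by
          rw [ENNReal.ofReal_add (by positivity) (by positivity),
            ENNReal.ofReal_mul (by positivity), ENNReal.ofReal_mul t0, ENNReal.ofReal_mul hA0,
            ENNReal.ofReal_add zero_le_one (by positivity), ENNReal.ofReal_one]
      _ = _ := by rw [hu]; ring
  have hzm : AEMeasurable (fun x => ENNReal.ofReal (3 ^ p) * (ENNReal.ofReal (w x) *
      ENNReal.ofReal (Z x ^ p))) (volume.restrict U) :=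
    (hwm.mul (g7.pow_const p).ennreal_ofReal).const_mul _
  calc ∫⁻ x in U, ENNReal.ofReal (w x) * ENNReal.ofReal (‖fderiv ℝ g x - cl (F x)‖ ^ p)
      ≤ ∫⁻ x in U, (ENNReal.ofReal (3 ^ p) * (ENNReal.ofReal (w x) * ENNReal.ofReal (Z x ^ p)) +
          ENNReal.ofReal (t x) * u x) := by
        refine lintegral_mono_ae ?_
        exact (ae_restrict_iff' hU.measurableSet).2 key
    _ = ENNReal.ofReal (3 ^ p) * (∫⁻ x in U, ENNReal.ofReal (w x) * ENNReal.ofReal (Z x ^ p)) +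
          ∫⁻ x in U, ENNReal.ofReal (t x) * u x := by
        rw [lintegral_add_left' hzm, lintegral_const_mul' _ _ ENNReal.ofReal_ne_top]
    _ ≤ ENNReal.ofReal (3 ^ p) * ENNReal.ofReal (1 / (2 * 3 ^ p)) + ENNReal.ofReal (1 / 2) := by
        gcongr
    _ = 1 := by
        rw [← ENNReal.ofReal_mul (by positivity), ← ENNReal.ofReal_add (by positivity)
          (by positivity), ← ENNReal.ofReal_one]
        congr 1
        field_simp
        ring

/-- **weighted fine approximation for bounded domains** -/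
theorem wfa_of_flag (hp : 1 ≤ p) (hΩ : St.IsBoundedDomain U) (hΛ : St.IsBoundedDomain W)
    (hf : St.IsHomeo U W f) (hF : SobLoc p U f F) (hc : 1 ≤ c) (hfl : DFlagFrom U F r b₀ c)
    (hsm : ∀ j, r j < b₀ → ContDiffOn ℝ ∞ (fun x => f x j) U)
    (hker : ∀ x ∈ U, ∀ h : V, (∀ j, r j < b₀ → fderiv ℝ (fun z => f z j) x h = 0) →
      ∀ j, r j < b₀ → h j = 0) : WFA p U W f F := by
  have hΛc : Wᶜ.Nonempty := by
    rw [nonempty_compl]
    rintro rfl
    exact NormedSpace.unbounded_univ ℝ V (PK.isBounded_of_domain hΛ)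
  obtain ⟨k, ⟨hk1, hk2⟩, hfc, hkc⟩ := id hf
  have hbij : BijOn f U W :=
    ⟨fun x hx => (hk1 x hx).1, fun x hx y hy h => by
      rw [← (hk1 x hx).2, h, (hk1 y hy).2], fun y hy => ⟨k y, (hk2 y hy).1, (hk2 y hy).2⟩⟩
  obtain ⟨δ₀, h1, h2, h3⟩ := Vale.Agent.P073.exists_delta_diffeo hΩ.1 hΛ.1
    hΛ.2.1.isPreconnected hΛc hfc hkc hbij ⟨fun x hx => (hk1 x hx).2, fun y hy => (hk2 y hy).2⟩
  refine wfa_flag hp hΩ.1 (PK.isBounded_of_domain hΩ) hΛ.1 hf hF hc hfl hsm hker h1 h2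
    fun g hg hgi hgf => ?_
  obtain ⟨hb, k', hk', hinv⟩ := h3 g hg hgi hgf
  refine ⟨k', ⟨fun x hx => ⟨hb.mapsTo hx, hinv.1 hx⟩, fun y hy => ?_⟩, contDiffOn_pi.1 hg,
    contDiffOn_pi.1 hk'⟩
  obtain ⟨x, hx, rfl⟩ := hb.surjOn hy
  have h4 : k' (g x) = x := hinv.1 hx
  rw [h4]
  exact ⟨hx, rfl⟩

end Vale.Agent.P073.R2.H488
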